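import Mathlib

namespace Vale.Agent.P069

variable {E : Type*} [NormedAddCommGroup E] [NormedSpace ℝ E]

/-- The closed subspaces of finite codimension. -/
def Cof (E : Type*) [NormedAddCommGroup E] [NormedSpace ℝ E] : Set (Submodule ℝ E) :=
  {F | IsClosed (F : Set E) ∧ FiniteDimensional ℝ (E ⧸ F)}

/-- `N` is a norm equivalent to the norm of the space. -/
def IsEquivalentNorm (N : Seminorm ℝ E) : Prop :=
  ∃ a b : ℝ, 0 < a ∧ 0 < b ∧ ∀ x, a * ‖x‖ ≤ N x ∧ N x ≤ b * ‖x‖

/-- The modulus of asymptotic uniform convexity of `N` at `t`. -/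
noncomputable def convexityModulus (N : Seminorm ℝ E) (t : ℝ) : EReal :=
  ⨅ x ∈ {x : E | N x = 1}, ⨆ F ∈ Cof E, ⨅ y ∈ {y : E | y ∈ F ∧ N y = 1},
    ((N (x + t • y) - 1 : ℝ) : EReal)

/-- The modulus of asymptotic midpoint uniform convexity of `N` at `t`. -/
noncomputable def midpointModulus (N : Seminorm ℝ E) (t : ℝ) : EReal :=
  ⨅ x ∈ {x : E | N x = 1}, ⨆ F ∈ Cof E, ⨅ y ∈ {y : E | y ∈ F ∧ N y = 1},
    ((max (N (x + t • y)) (N (x - t • y)) - 1 : ℝ) : EReal)

/-- Asymptotically uniformly convex. -/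
def AUC (N : Seminorm ℝ E) : Prop := ∀ t : ℝ, 0 < t → 0 < convexityModulus N t

/-- Asymptotically midpoint uniformly convex. -/
def AMUC (N : Seminorm ℝ E) : Prop := ∀ t : ℝ, 0 < t → 0 < midpointModulus N t

/-- The canonical map into the bidual is onto. -/
def IsReflexiveSpace (E : Type*) [NormedAddCommGroup E] [NormedSpace ℝ E] : Prop :=
  ∀ Φ : StrongDual ℝ (StrongDual ℝ E), ∃ x : E, ∀ f : StrongDual ℝ E, Φ f = f x

/-- The space has an equivalent AMUC norm. -/
def AMUCRenormable (E : Type*) [NormedAddCommGroup E] [NormedSpace ℝ E] : Prop :=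
  ∃ N : Seminorm ℝ E, IsEquivalentNorm N ∧ AMUC N

/-- The space has an equivalent AUC norm. -/
def AUCRenormable (E : Type*) [NormedAddCommGroup E] [NormedSpace ℝ E] : Prop :=
  ∃ N : Seminorm ℝ E, IsEquivalentNorm N ∧ AUC N

end Vale.Agent.P069
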