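import Vale.Agent.P069.Norm

/-!
The dual of the James forest space: density of finitely supported functionals and reflexivity.
-/

namespace Vale.Agent.P069

open Classical

/-- The space of the example. -/
abbrev X : Type := StrongDual ℝ Y

/-- A gliding hump lemma. -/
lemma glide {Z : Type*} [SeminormedAddCommGroup Z] [NormedSpace ℝ Z] (φ : Z →L[ℝ] ℝ)
    (On Off : ℕ → Submodule ℝ Z) (hmono : Monotone On)
    (hup : ∀ n, ∀ z ∈ On n, ∀ z' ∈ Off n, ‖z + z'‖ ^ 2 ≤ ‖z‖ ^ 2 + ‖z'‖ ^ 2) {e : ℝ} (he : 0 < e) :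
    ∃ n, ∀ m, ∀ z ∈ Off n, z ∈ On m → |φ z| ≤ e * ‖z‖ := by
  by_contra hcon
  push Not at hcon
  have h1 : ∀ n, ∃ m, ∃ z ∈ Off n, z ∈ On m ∧ ‖z‖ ≤ 1 ∧ e ≤ φ z := by
    intro n
    obtain ⟨m, z, hz, hz', h⟩ := hcon n
    have hz0 : 0 < ‖z‖ := by
      rcases (norm_nonneg z).eq_or_lt with h0 | h0
      · have := φ.le_opNorm z
        rw [← h0, mul_zero, Real.norm_eq_abs] at this
        rw [← h0, mul_zero] at h
        linarith
      · exact h0
    refine ⟨m, (SignType.sign (φ z) / ‖z‖ : ℝ) • z, (Off n).smul_mem _ hz, (On m).smul_mem _ hz',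
      ?_, ?_⟩
    · rw [norm_smul, norm_div, norm_norm, div_mul_cancel₀ _ hz0.ne']
      rcases lt_trichotomy (φ z) 0 with h0 | h0 | h0 <;> simp [h0]
    · rw [map_smul, smul_eq_mul, div_mul_eq_mul_div, sign_mul_self, le_div_iff₀ hz0]
      exact h.le
  have h2 : ∀ k : ℕ, ∃ n, ∃ z ∈ On n, ‖z‖ ^ 2 ≤ k ∧ k * e ≤ φ z := by
    intro k
    induction k with
    | zero => exact ⟨0, 0, (On 0).zero_mem, by simp, by simp⟩
    | succ k ih =>
      obtain ⟨n, z, hz, hz1, hz2⟩ := ih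
      obtain ⟨m, z', hz', hz'', h3, h4⟩ := h1 n
      refine ⟨max n m, z + z', (On _).add_mem (hmono (le_max_left _ _) hz)
        (hmono (le_max_right _ _) hz''), ?_, ?_⟩
      · have := hup n z hz z' hz'
        have h5 : ‖z'‖ ^ 2 ≤ 1 := pow_le_one₀ (norm_nonneg _) h3
        push_cast
        linarith
      · rw [map_add]; push_cast; linarith
  obtain ⟨k, hk⟩ := exists_nat_gt (‖φ‖ ^ 2 / e ^ 2)
  obtain ⟨n, z, _, hz1, hz2⟩ := h2 k
  have hk0 : (0 : ℝ) < k := lt_of_le_of_lt (by positivity) hk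
  have h3 : φ z ≤ ‖φ‖ * ‖z‖ := (le_abs_self _).trans (φ.le_opNorm z)
  have h4 : (k * e) ^ 2 ≤ (‖φ‖ * ‖z‖) ^ 2 := pow_le_pow_left₀ (by positivity) (hz2.trans h3) 2
  rw [div_lt_iff₀ (by positivity)] at hk
  have h5 : (‖φ‖ * ‖z‖) ^ 2 ≤ ‖φ‖ ^ 2 * k := by rw [mul_pow]; gcongr
  nlinarith

lemma tail_small {c : Node → ℝ} {C : ℝ} (h : ∀ B : Finset Node, ∑ t ∈ B, c t ^ 2 ≤ C) {e : ℝ}
    (he : 0 < e) : ∃ F : Finset Node, ∀ B : Finset Node, Disjoint B F → ∑ t ∈ B, c t ^ 2 ≤ e := by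
  have hs : Summable fun t => c t ^ 2 := summable_of_sum_le (fun _ => sq_nonneg _) h
  obtain ⟨F, hF⟩ := summable_iff_vanishing_norm.mp hs e he
  exact ⟨F, fun B hB => (le_abs_self _).trans (hF B hB).le⟩

/-- The unit vector at a node. -/
noncomputable def ev (t : Node) : Y := Finsupp.single t 1

lemma apply_eq_sum (f : X) (z : Y) : f z = ∑ t ∈ z.support, z t * f (ev t) := by
  conv_lhs => rw [← Finsupp.sum_single z, Finsupp.sum, map_sum]
  refine Finset.sum_congr rfl fun t _ => ?_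
  rw [← smul_eq_mul, ← map_smul, ev, Finsupp.smul_single, smul_eq_mul, mul_one]

lemma apply_eq_zero {f : X} {z : Y} (h : ∀ t, f (ev t) = 0 ∨ z t = 0) : f z = 0 := by
  rw [apply_eq_sum]
  exact Finset.sum_eq_zero fun t _ => by rcases h t with h | h <;> simp [h]

lemma apply_eq_rst {f : X} {p : Node → Prop} (h : ∀ t, ¬ p t → f (ev t) = 0) (z : Y) :
    f z = f (rst p z) := by
  conv_lhs => rw [← rst_add_rst p z, map_add]
  rw [apply_eq_zero (z := rst (fun t => ¬ p t) z), add_zero]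
  intro t
  by_cases ht : p t
  · exact Or.inr (rst_neg _ (not_not.mpr ht))
  · exact Or.inl (h t ht)

/-- The coordinate functional of a node. -/
noncomputable def co (t : Node) : X :=
  LinearMap.mkContinuous (Finsupp.lapply t) 1 fun z => by
    simpa using abs_seg_le z (isSeg_singleton t)

lemma co_apply (t : Node) (z : Y) : co t z = z t := rfl

lemma sum_ev_apply (B : Finset Node) (c : Node → ℝ) (t : Node) :
    (∑ u ∈ B, c u • ev u) t = if t ∈ B then c t else 0 := by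
  simp only [Finsupp.finsetSum_apply, Finsupp.smul_apply, ev, Finsupp.single_apply, smul_eq_mul,
    mul_ite, mul_one, mul_zero, Finset.sum_ite_eq']

lemma coef_sq_le (f : X) {n : ℕ} {B : Finset Node} (hB : ∀ t ∈ B, t.tr < n) :
    ∑ t ∈ B, f (ev t) ^ 2 ≤ n * ‖f‖ ^ 2 := by
  set z : Y := ∑ u ∈ B, f (ev u) • ev u with hz
  set s := ∑ t ∈ B, f (ev t) ^ 2 with hs
  have hs0 : 0 ≤ s := Finset.sum_nonneg fun _ _ => sq_nonneg _
  have h1 : f z = s := by
    simp only [hz, hs, map_sum, map_smul, smul_eq_mul, sq]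
  have h2 : ‖z‖ ^ 2 ≤ n * s := by
    refine (norm_sq_le_euclid (n := n) fun t ht => ?_).trans ?_
    · rw [hz, sum_ev_apply, if_neg fun h => (hB t h).not_ge ht]
    · gcongr
      have : ∀ t, z t ^ 2 = if t ∈ B then f (ev t) ^ 2 else 0 := by
        intro t
        rw [hz, sum_ev_apply]
        split_ifs <;> simp
      simp only [this, ← Finset.sum_filter]
      exact Finset.sum_le_sum_of_subset_of_nonneg (fun t ht => (Finset.mem_filter.mp ht).2)
        fun _ _ _ => sq_nonneg _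
  have h3 : s ≤ ‖f‖ * ‖z‖ := h1 ▸ (le_abs_self _).trans (f.le_opNorm z)
  have h4 : s ^ 2 ≤ (‖f‖ * ‖z‖) ^ 2 := by gcongr
  rcases hs0.eq_or_lt with h0 | h0
  · rw [← h0]; positivity
  · have h5 : (‖f‖ * ‖z‖) ^ 2 ≤ ‖f‖ ^ 2 * (n * s) := by rw [mul_pow]; gcongr
    nlinarith

lemma abs_sum_mul_le (B : Finset Node) (a b : Node → ℝ) {p q : ℝ} (hp : 0 ≤ p) (hq : 0 ≤ q)
    (ha : ∑ t ∈ B, a t ^ 2 ≤ p ^ 2) (hb : ∑ t ∈ B, b t ^ 2 ≤ q ^ 2) :
    |∑ t ∈ B, a t * b t| ≤ p * q := by
  refine abs_le_of_sq_le_sq' ?_ (by positivity) |> abs_le.mpr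
  refine (Finset.sum_mul_sq_le_sq_mul_sq B a b).trans ?_
  rw [mul_pow]
  have : 0 ≤ ∑ t ∈ B, b t ^ 2 := Finset.sum_nonneg fun _ _ => sq_nonneg _
  gcongr

/-- Vectors vanishing at the nodes with a given property. -/
def vanY (p : Node → Prop) : Submodule ℝ Y where
  carrier := {z | ∀ t, p t → z t = 0}
  add_mem' ha hb t ht := by rw [Finsupp.add_apply, ha t ht, hb t ht, add_zero]
  zero_mem' _ _ := rfl
  smul_mem' c z hz t ht := by rw [Finsupp.smul_apply, hz t ht, smul_zero]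

/-- Functionals vanishing at the unit vectors of the nodes with a given property. -/
def vanX (p : Node → Prop) : Submodule ℝ X where
  carrier := {f | ∀ t, p t → f (ev t) = 0}
  add_mem' ha hb t ht := by rw [add_apply, ha t ht, hb t ht, add_zero]
  zero_mem' _ _ := rfl
  smul_mem' c z hz t ht := by rw [smul_apply, hz t ht, smul_zero]

/-- Every functional is small off a suitable finite downward closed set. -/
theorem dense_X (x : X) {e : ℝ} (he : 0 < e) :
    ∃ F : Finset Node, Low F ∧ ∀ z : Y, (∀ t ∈ F, z t = 0) → |x z| ≤ e * ‖z‖ := by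
  obtain ⟨n, hn⟩ := glide x (fun n => vanY fun t => n ≤ t.tr) (fun n => vanY fun t => t.tr < n)
    (fun n m h z hz t ht => hz t (h.trans ht)) (fun n z hz z' hz' => upper_trees hz hz')
    (half_pos he)
  obtain ⟨F₀, hF₀⟩ := tail_small (c := fun t => if t.tr < n then x (ev t) else 0)
    (C := n * ‖x‖ ^ 2) (fun B => by
      refine le_trans (le_of_eq ?_) (coef_sq_le x (n := n) (B := B.filter fun t => t.tr < n)
        fun t ht => (Finset.mem_filter.mp ht).2)
      rw [Finset.sum_filter]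
      exact Finset.sum_congr rfl fun t _ => by split_ifs <;> simp) (e := (e / 2) ^ 2)
      (by positivity)
  obtain ⟨F, hF, hFF⟩ := exists_low F₀
  refine ⟨F, hF, fun z hz => ?_⟩
  have h1 := hn (z.support.sup (fun t => t.tr) + 1) (rst (fun t => ¬ t.tr < n) z)
    (fun t ht => rst_neg _ (not_not.mpr ht)) (fun t ht => by
      have : z t = 0 := by
        by_contra h
        have := Finset.le_sup (f := fun t : Node => t.tr) (Finsupp.mem_support_iff.mpr h)
        omega
      by_cases h : t.tr < n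
      · exact rst_neg _ (not_not.mpr h)
      · rw [rst_pos (p := fun t => ¬ t.tr < n) _ h, this])
  have h2 : ‖rst (fun t => ¬ t.tr < n) z‖ ≤ ‖z‖ := norm_rst_le (conv_tr fun k => ¬ k < n) z
  have h3 : |x (rst (fun t => t.tr < n) z)| ≤ ‖z‖ * (e / 2) := by
    have e1 : x (rst (fun t => t.tr < n) z) =
        ∑ t ∈ z.support, z t * if t.tr < n then x (ev t) else 0 := by
      rw [apply_eq_sum, rst, Finsupp.support_filter, Finset.sum_filter]
      refine Finset.sum_congr rfl fun t _ => ?_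
      by_cases h : t.tr < n <;> simp [h]
    rw [e1]
    refine abs_sum_mul_le _ _ _ (norm_nonneg _) (by positivity) (sum_sq_le z _) (hF₀ _ ?_)
    rw [Finset.disjoint_left]
    intro t ht ht'
    exact Finsupp.mem_support_iff.mp ht (hz t (hFF ht'))
  conv_lhs => rw [← rst_add_rst (fun t => t.tr < n) z, map_add]
  refine (abs_add_le _ _).trans ?_
  nlinarith

/-- The finite rank projection onto the coordinates in `B`. -/
noncomputable def proj (B : Finset Node) (f : X) : X := ∑ t ∈ B, f (ev t) • co t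

lemma proj_apply (B : Finset Node) (f : X) (z : Y) : proj B f z = f (rst (· ∈ B) z) := by
  have : rst (· ∈ B) z = ∑ u ∈ B, z u • ev u := by
    ext t
    rw [sum_ev_apply]
    split_ifs with h
    · exact rst_pos _ h
    · exact rst_neg _ h
  rw [this, proj, map_sum, sum_apply]
  refine Finset.sum_congr rfl fun t _ => ?_
  rw [map_smul, smul_apply, co_apply, smul_eq_mul, smul_eq_mul, mul_comm]

lemma sub_proj_apply (B : Finset Node) (f : X) (z : Y) :
    (f - proj B f) z = f (rst (· ∉ B) z) := by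
  rw [sub_apply, proj_apply]
  conv_lhs => rw [← rst_add_rst (· ∈ B) z, map_add]
  have : rst (· ∈ B) (rst (· ∈ B) z + rst (fun t => ¬ t ∈ B) z) = rst (· ∈ B) z := by
    rw [rst_add_rst]
  rw [this]; ring

lemma norm_proj_le {B : Finset Node} (hB : Conv (· ∈ B)) (f : X) : ‖proj B f‖ ≤ ‖f‖ := by
  refine ContinuousLinearMap.opNorm_le_bound _ (norm_nonneg _) fun z => ?_
  rw [proj_apply]
  refine (f.le_opNorm _).trans ?_
  gcongr
  exact norm_rst_le hB z

lemma norm_sub_proj_le {B : Finset Node} (hB : Low B) (f : X) : ‖f - proj B f‖ ≤ ‖f‖ := by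
  refine ContinuousLinearMap.opNorm_le_bound _ (norm_nonneg _) fun z => ?_
  rw [sub_proj_apply]
  refine (f.le_opNorm _).trans ?_
  gcongr
  exact norm_rst_le hB.conv_not z

lemma proj_ev (B : Finset Node) (f : X) (t : Node) :
    proj B f (ev t) = if t ∈ B then f (ev t) else 0 := by
  simp only [proj, sum_apply, smul_apply, co_apply, ev, Finsupp.single_apply,
    smul_eq_mul, mul_ite, mul_one, mul_zero, Finset.sum_ite_eq]

lemma upper_X {f f' : X} {n : ℕ} (hf : ∀ t, n ≤ t.tr → f (ev t) = 0)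
    (hf' : ∀ t, t.tr < n → f' (ev t) = 0) : ‖f + f'‖ ^ 2 ≤ ‖f‖ ^ 2 + ‖f'‖ ^ 2 := by
  have h : ‖f + f'‖ ≤ Real.sqrt (‖f‖ ^ 2 + ‖f'‖ ^ 2) := by
    refine ContinuousLinearMap.opNorm_le_bound _ (Real.sqrt_nonneg _) fun z => ?_
    rw [add_apply, apply_eq_rst (f := f) (p := fun t => t.tr < n) (fun t ht => hf t (not_lt.mp ht)),
      apply_eq_rst (f := f') (p := fun t => n ≤ t.tr) (fun t ht => hf' t (not_le.mp ht))]
    have h1 := f.le_opNorm (rst (fun t => t.tr < n) z)
    have h2 := f'.le_opNorm (rst (fun t => n ≤ t.tr) z)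
    have h3 := lower_two (conv_tr (· < n)) (conv_tr (n ≤ ·)) (fun t ht => not_le.mpr ht) z
    refine (norm_add_le _ _).trans ((add_le_add h1 h2).trans ?_)
    refine le_of_sq_le_sq ?_ (by positivity)
    rw [mul_pow, Real.sq_sqrt (by positivity)]
    generalize ‖rst (fun t => t.tr < n) z‖ = a at *
    generalize ‖rst (fun t => n ≤ t.tr) z‖ = b at *
    have h4 : (‖f‖ ^ 2 + ‖f'‖ ^ 2) * (a ^ 2 + b ^ 2) ≤ (‖f‖ ^ 2 + ‖f'‖ ^ 2) * ‖z‖ ^ 2 := by gcongr
    nlinarith [sq_nonneg (‖f‖ * b - ‖f'‖ * a)]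
  calc ‖f + f'‖ ^ 2 ≤ Real.sqrt (‖f‖ ^ 2 + ‖f'‖ ^ 2) ^ 2 := by gcongr
    _ = _ := Real.sq_sqrt (by positivity)

lemma dual_coef_sq_le (G : StrongDual ℝ X) (B : Finset Node) :
    ∑ t ∈ B, G (co t) ^ 2 ≤ ‖G‖ ^ 2 := by
  set f : X := ∑ u ∈ B, G (co u) • co u with hf
  set s := ∑ t ∈ B, G (co t) ^ 2 with hs
  have hs0 : 0 ≤ s := Finset.sum_nonneg fun _ _ => sq_nonneg _
  have h1 : G f = s := by
    simp only [hf, hs, map_sum, map_smul, smul_eq_mul, sq]
  have h2 : ‖f‖ ≤ Real.sqrt s := by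
    refine ContinuousLinearMap.opNorm_le_bound _ (Real.sqrt_nonneg _) fun z => ?_
    simp only [hf, sum_apply, smul_apply, co_apply, smul_eq_mul]
    exact abs_sum_mul_le _ _ _ (Real.sqrt_nonneg _) (norm_nonneg _)
      (by rw [Real.sq_sqrt hs0]) (sum_sq_le z B)
  have h3 : s ≤ ‖G‖ * Real.sqrt s := by
    refine (h1 ▸ (le_abs_self _).trans (G.le_opNorm f) : s ≤ ‖G‖ * ‖f‖).trans ?_
    gcongr
  have h4 := Real.sq_sqrt hs0
  nlinarith [Real.sqrt_nonneg s, norm_nonneg G, sq_nonneg (Real.sqrt s - ‖G‖)]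

/-- Every functional on `X` is small on functionals vanishing on a suitable finite set. -/
theorem dense_dual (G : StrongDual ℝ X) {e : ℝ} (he : 0 < e) :
    ∃ F : Finset Node, Low F ∧ ∀ f : X, (∀ t ∈ F, f (ev t) = 0) → |G f| ≤ e * ‖f‖ := by
  obtain ⟨n, hn⟩ := glide G (fun n => vanX fun t => n ≤ t.tr) (fun n => vanX fun t => t.tr < n)
    (fun n m h z hz t ht => hz t (h.trans ht)) (fun n z hz z' hz' => upper_X hz hz')
    (half_pos he)
  have hsn : 0 < Real.sqrt n + 1 := by positivity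
  obtain ⟨F₀, hF₀⟩ := tail_small (c := fun t => G (co t)) (dual_coef_sq_le G)
    (e := (e / 2 / (Real.sqrt n + 1)) ^ 2) (by positivity)
  obtain ⟨F, hF, hFF⟩ := exists_low F₀
  refine ⟨F, hF, fun f hf => ?_⟩
  refine le_of_forall_pos_le_add fun d hd => ?_
  obtain ⟨F', hF', hd'⟩ := dense_X f (e := d / (‖G‖ + 1)) (by positivity)
  have h0 : ‖f - proj F' f‖ ≤ d / (‖G‖ + 1) := by
    refine ContinuousLinearMap.opNorm_le_bound _ (by positivity) fun z => ?_
    rw [sub_proj_apply]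
    refine (hd' _ fun t ht => rst_neg _ (not_not.mpr ht)).trans ?_
    gcongr
    exact norm_rst_le hF'.conv_not z
  have h0' : |G (f - proj F' f)| ≤ d := by
    refine (G.le_opNorm _).trans ?_
    calc ‖G‖ * ‖f - proj F' f‖ ≤ (‖G‖ + 1) * (d / (‖G‖ + 1)) := by gcongr; linarith
      _ = d := by field_simp
  have hsplit : proj F' f = proj (F'.filter fun t => t.tr < n) f +
      proj (F'.filter fun t => ¬ t.tr < n) f := by
    rw [proj, proj, proj, Finset.sum_filter_add_sum_filter_not]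
  have h1 := hn (F'.sup (fun t => t.tr) + 1) (proj (F'.filter fun t => ¬ t.tr < n) f)
    (fun t ht => by rw [proj_ev, if_neg]; simp [ht]) (fun t ht => by
      rw [proj_ev, if_neg]
      intro h
      have := Finset.le_sup (f := fun t : Node => t.tr) (Finset.mem_filter.mp h).1
      omega)
  have h2 : ‖proj (F'.filter fun t => ¬ t.tr < n) f‖ ≤ ‖f‖ := by
    refine norm_proj_le ?_ f
    simpa only [Finset.mem_filter] using hF'.conv.and (conv_tr fun k => ¬ k < n)
  have h3 : |G (proj (F'.filter fun t => t.tr < n) f)| ≤ e / 2 * ‖f‖ := by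
    have e1 : G (proj (F'.filter fun t => t.tr < n) f) =
        ∑ t ∈ (F'.filter fun t => t.tr < n).filter (· ∉ F), f (ev t) * G (co t) := by
      rw [proj, map_sum]
      simp only [map_smul, smul_eq_mul]
      refine (Finset.sum_filter_of_ne (p := (· ∉ F)) fun t _ h0 htF => h0 ?_).symm
      rw [hf t htF, zero_mul]
    rw [e1]
    refine (abs_sum_mul_le _ _ _ (p := Real.sqrt n * ‖f‖) (by positivity) (by positivity) ?_
      (hF₀ _ ?_)).trans ?_
    · rw [mul_pow, Real.sq_sqrt (Nat.cast_nonneg n)]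
      exact coef_sq_le f fun t ht => (Finset.mem_filter.mp (Finset.mem_filter.mp ht).1).2
    · rw [Finset.disjoint_left]
      intro t ht ht'
      exact (Finset.mem_filter.mp ht).2 (hFF ht')
    · calc Real.sqrt n * ‖f‖ * (e / 2 / (Real.sqrt n + 1))
          ≤ (Real.sqrt n + 1) * ‖f‖ * (e / 2 / (Real.sqrt n + 1)) := by gcongr; linarith
        _ = e / 2 * ‖f‖ := by field_simp
  have e2 : G f = G (f - proj F' f) + (G (proj (F'.filter fun t => t.tr < n) f) +
      G (proj (F'.filter fun t => ¬ t.tr < n) f)) := by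
    rw [← map_add, ← hsplit, ← map_add, sub_add_cancel]
  rw [e2]
  refine (abs_add_le _ _).trans ((add_le_add le_rfl (abs_add_le _ _)).trans ?_)
  nlinarith

/-- The space `X` is reflexive. -/
theorem reflexive : Function.Surjective (NormedSpace.inclusionInDoubleDual ℝ X) := by
  intro Φ
  set x : X := Φ.comp (NormedSpace.inclusionInDoubleDual ℝ Y) with hx
  refine ⟨x, ?_⟩
  ext1 G
  rw [NormedSpace.dual_def]
  refine eq_of_forall_dist_le fun e he => ?_
  have hpos : 0 < ‖Φ‖ + ‖x‖ + 1 := by positivity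
  obtain ⟨F, hF, h⟩ := dense_dual G (e := e / (‖Φ‖ + ‖x‖ + 1)) (by positivity)
  set g : Y := ∑ t ∈ F, G (co t) • ev t with hg
  set G' := G - NormedSpace.inclusionInDoubleDual ℝ Y g with hG'
  have h1 : ‖G'‖ ≤ e / (‖Φ‖ + ‖x‖ + 1) := by
    refine ContinuousLinearMap.opNorm_le_bound _ (by positivity) fun f => ?_
    have e1 : G' f = G (f - proj F f) := by
      rw [hG', sub_apply, NormedSpace.dual_def]
      simp only [hg, proj, map_sub, map_sum, map_smul, smul_eq_mul, mul_comm]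
    rw [e1]
    refine (h _ fun t ht => by rw [sub_apply, proj_ev, if_pos ht, sub_self]).trans ?_
    gcongr
    exact norm_sub_proj_le hF f
  have e2 : G x - Φ G = G' x - Φ G' := by
    simp only [hG', sub_apply, map_sub, NormedSpace.dual_def, hx, ContinuousLinearMap.comp_apply]
    ring
  rw [dist_eq_norm, e2]
  calc ‖G' x - Φ G'‖ ≤ ‖G'‖ * ‖x‖ + ‖Φ‖ * ‖G'‖ :=
        (norm_sub_le _ _).trans (add_le_add (G'.le_opNorm x) (Φ.le_opNorm G'))
    _ ≤ (‖Φ‖ + ‖x‖ + 1) * ‖G'‖ := by nlinarith [norm_nonneg G']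
    _ ≤ (‖Φ‖ + ‖x‖ + 1) * (e / (‖Φ‖ + ‖x‖ + 1)) := by gcongr
    _ = e := by field_simp

end Vale.Agent.P069
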