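import Vale.Agent.P069.Norm

/-!
The key midpoint estimate in the James tree norm.
-/

namespace Vale.Agent.P069

open Classical

/-- The part of `F` above a node. -/
noncomputable def Kof (F : Finset Node) (t : Node) : Finset Node := F.filter (· ≤ t)

lemma Kof_eq {F : Finset Node} (hF : Low F) {a c : Node} (ha : a ∉ F) (h : a ≤ c) :
    Kof F c = Kof F a := by
  ext u
  simp only [Kof, Finset.mem_filter]
  refine and_congr_right fun hu => ⟨fun h1 => ?_, fun h1 => h1.trans h⟩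
  rcases Node.total_of_le h1 h with h2 | h2
  · exact h2
  · exact absurd (hF _ _ h2 hu) ha

lemma conv_Kof {F : Finset Node} (hF : Low F) (K : Finset Node) :
    Conv fun t => t ∉ F ∧ Kof F t = K := by
  intro a b c ha _ h1 _
  exact ⟨fun hc => ha.1 (hF _ _ h1 hc), by rw [Kof_eq hF ha.1 h1, ha.2]⟩

lemma exists_sign (K : Finset Node) (h : Node → ℝ) (r : ℝ) :
    ∃ σ : ℝ, (σ = 1 ∨ σ = -1) ∧ ((∀ a ∈ K, ∀ b ∈ K, a ≤ b ∨ b ≤ a) →
      ∀ a ∈ K, r ≤ -σ * h a → ∃ b ∈ K, a ≤ b ∧ r ≤ σ * h b) := by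
  by_cases hK : ∀ a ∈ K, ∀ b ∈ K, a ≤ b ∨ b ≤ a
  swap
  · exact ⟨1, Or.inl rfl, fun h => absurd h hK⟩
  by_cases hne : (K.filter fun a => r ≤ |h a|).Nonempty
  · obtain ⟨b, hb, hmax⟩ := exists_max_of_chain (fun a ha b hb =>
      hK a (Finset.mem_filter.mp ha).1 b (Finset.mem_filter.mp hb).1) hne
    rw [Finset.mem_filter] at hb
    by_cases h0 : 0 ≤ h b
    · refine ⟨1, Or.inl rfl, fun _ a ha hr => ⟨b, hb.1, hmax a (Finset.mem_filter.mpr
        ⟨ha, hr.trans (by simpa using neg_le_abs (h a))⟩), ?_⟩⟩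
      rw [abs_of_nonneg h0] at hb
      simpa using hb.2
    · refine ⟨-1, Or.inr rfl, fun _ a ha hr => ⟨b, hb.1, hmax a (Finset.mem_filter.mpr
        ⟨ha, hr.trans (by simpa using le_abs_self (h a))⟩), ?_⟩⟩
      rw [abs_of_neg (not_le.mp h0)] at hb
      simpa using hb.2
  · refine ⟨1, Or.inl rfl, fun _ a ha hr => absurd ⟨a, Finset.mem_filter.mpr ⟨ha, ?_⟩⟩ hne⟩
    exact hr.trans (by simpa using neg_le_abs (h a))

/-- The vector whose potential below `F` is `φ` of the potential of `w`. -/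
noncomputable def der (F : Finset Node) (w : Y) (φ : Finset Node → ℝ → ℝ) : Y :=
  Finsupp.onFinset w.support
    (fun t => if t ∈ F then 0 else φ (Kof F t) (pot w t) - φ (Kof F t) (pot' w t)) (by
      intro t ht
      by_contra h
      have h1 := pot_sub w t
      rw [Finsupp.notMem_support_iff.mp h, sub_eq_zero] at h1
      simp [h1] at ht)

lemma der_mem {F : Finset Node} (w : Y) (φ : Finset Node → ℝ → ℝ) {t : Node} (ht : t ∈ F) :
    der F w φ t = 0 := by simp [der, ht]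

lemma der_notMem {F : Finset Node} (w : Y) (φ : Finset Node → ℝ → ℝ) {t : Node} (ht : t ∉ F) :
    der F w φ t = φ (Kof F t) (pot w t) - φ (Kof F t) (pot' w t) := by simp [der, ht]

lemma sum_der {F : Finset Node} (hF : Low F) {w : Y} (hw : ∀ t ∈ F, w t = 0) {S : Finset Node}
    (hS : IsSeg S) (hne : (S.filter (· ∉ F)).Nonempty) :
    ∃ c ∈ S, c ∉ F ∧ (∀ t ∈ S, t ∉ F → c ≤ t) ∧ ∃ s ∈ S, s ∉ F ∧
      ∑ t ∈ S, w t = pot w s - pot' w c ∧ ∀ φ : Finset Node → ℝ → ℝ,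
        ∑ t ∈ S, der F w φ t = φ (Kof F c) (pot w s) - φ (Kof F c) (pot' w c) := by
  have hS' := hS.filter hF.conv_not
  obtain ⟨c, hc, hmin⟩ := exists_min_of_chain hS'.1 hne
  obtain ⟨s, hs, hmax⟩ := exists_max_of_chain hS'.1 hne
  have hc' := Finset.mem_filter.mp hc
  have hs' := Finset.mem_filter.mp hs
  refine ⟨c, hc'.1, hc'.2, fun t ht htF => hmin t (Finset.mem_filter.mpr ⟨ht, htF⟩), s, hs'.1,
    hs'.2, ?_, fun φ => ?_⟩
  · have := pot_telescope w id hS' hc hmin hs hmax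
    simp only [id, pot_sub] at this
    rw [← this]
    refine (Finset.sum_filter_of_ne (p := (· ∉ F)) fun t _ ht htF => ht (hw t htF)).symm
  · rw [← pot_telescope w (φ (Kof F c)) hS' hc hmin hs hmax,
      ← Finset.sum_filter_of_ne (p := (· ∉ F)) fun t _ ht htF => ht (der_mem w φ htF)]
    refine Finset.sum_congr rfl fun t ht => ?_
    rw [der_notMem w φ (Finset.mem_filter.mp ht).2, Kof_eq hF hc'.2 (hmin t ht)]

lemma sum_der_sq_le {F : Finset Node} (hF : Low F) {w : Y} (hw : ∀ t ∈ F, w t = 0)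
    {φ : Finset Node → ℝ → ℝ} (hφ : ∀ K x y, |φ K x - φ K y| ≤ |x - y|) {S : Finset Node}
    (hS : IsSeg S) : (∑ t ∈ S, der F w φ t) ^ 2 ≤ (∑ t ∈ S, w t) ^ 2 := by
  by_cases hne : (S.filter (· ∉ F)).Nonempty
  · obtain ⟨c, _, _, _, s, _, _, h1, h2⟩ := sum_der hF hw hS hne
    rw [h1, h2, sq_le_sq]
    exact hφ _ _ _
  · have : ∀ t ∈ S, t ∈ F := fun t ht => by
      by_contra h
      exact hne ⟨t, Finset.mem_filter.mpr ⟨ht, h⟩⟩
    rw [Finset.sum_eq_zero fun t ht => der_mem w φ (this t ht)]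
    simpa using sq_nonneg _

lemma norm_der_le {F : Finset Node} (hF : Low F) {w : Y} (hw : ∀ t ∈ F, w t = 0)
    {φ : Finset Node → ℝ → ℝ} (hφ : ∀ K x y, |φ K x - φ K y| ≤ |x - y|) : ‖der F w φ‖ ≤ ‖w‖ := by
  refine le_of_sq_le_sq (norm_sq_le fun G hG => ?_) (norm_nonneg _)
  rw [norm_sq]
  exact (Finset.sum_le_sum fun S hS => sum_der_sq_le hF hw hφ (hG.1 S hS)).trans (Q_le_jsq w hG)

/-- The part of `F` above the nodes of `S` outside `F`. -/
noncomputable def KS (F S : Finset Node) : Finset Node := F.filter fun u => ∃ t ∈ S, t ∉ F ∧ u ≤ t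

/-- `S` meets both `F` and its complement. -/
def Cross (F S : Finset Node) : Prop := (∃ a ∈ S, a ∈ F) ∧ ∃ t ∈ S, t ∉ F

lemma KS_eq {F S : Finset Node} (hF : Low F) {c : Node} (hc : c ∈ S) (hcF : c ∉ F)
    (hmin : ∀ t ∈ S, t ∉ F → c ≤ t) : KS F S = Kof F c := by
  ext u
  simp only [KS, Finset.mem_filter]
  constructor
  · rintro ⟨hu, t, ht, htF, h⟩
    rw [← Kof_eq hF hcF (hmin t ht htF)]
    exact Finset.mem_filter.mpr ⟨hu, h⟩
  · intro h
    exact ⟨(Finset.mem_filter.mp h).1, c, hc, hcF, (Finset.mem_filter.mp h).2⟩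

lemma KS_ne {F S S' : Finset Node} (hF : Low F) (hS : IsSeg S) (hS' : IsSeg S') (h : Cross F S)
    (h' : Cross F S') (hd : Disjoint S S') : KS F S ≠ KS F S' := by
  have aux : ∀ {S : Finset Node}, IsSeg S → Cross F S → ∀ a ∈ S, a ∈ F → a ∈ KS F S := by
    intro S hS h a ha haF
    obtain ⟨t, ht, htF⟩ := h.2
    refine Finset.mem_filter.mpr ⟨haF, t, ht, htF, ?_⟩
    rcases hS.1 a ha t ht with h1 | h1
    · exact h1
    · exact absurd (hF _ _ h1 haF) htF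
  intro e
  obtain ⟨a, ha, haF⟩ := h.1
  obtain ⟨a', ha', haF'⟩ := h'.1
  have h1 := aux hS h a ha haF
  have h2 := aux hS' h' a' ha' haF'
  rw [e] at h1
  rw [← e] at h2
  obtain ⟨_, t', ht', _, hat'⟩ := Finset.mem_filter.mp h1
  obtain ⟨_, t, ht, htF, hat⟩ := Finset.mem_filter.mp h2
  have hat2 : a ≤ t := by
    rcases hS.1 a ha t ht with h1 | h1
    · exact h1
    · exact absurd (hF _ _ h1 haF) htF
  rcases Node.total_of_le hat2 hat with h3 | h3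
  · exact Finset.disjoint_left.mp hd (hS.2 a t a' ha ht h3 hat) ha'
  · exact Finset.disjoint_left.mp hd ha (hS'.2 a' t' a ha' ht' h3 hat')

lemma real_cross {α β γ σ r : ℝ} (hσ : σ = 1 ∨ σ = -1) (hβ : σ * β ≤ 0) (hβr : |β| ≤ r)
    (hα : r ≤ -σ * α) (hγ : r ≤ σ * γ) : α ^ 2 + 2 * α * β ≤ (α - γ) ^ 2 + γ ^ 2 := by
  have := abs_le.mp hβr
  rcases hσ with rfl | rfl <;> nlinarith [this.1, this.2, sq_nonneg γ]

lemma real_small {α β σ r : ℝ} (hσ : σ = 1 ∨ σ = -1) (hβ : σ * β ≤ 0) (hβr : |β| ≤ r)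
    (hα : -σ * α < r) : 2 * α * β ≤ 2 * r ^ 2 := by
  have := abs_le.mp hβr
  rcases hσ with rfl | rfl <;> nlinarith [this.1, this.2]

lemma seg_estimate {F : Finset Node} (hF : Low F) {v w : Y} (hv : ∀ t ∉ F, v t = 0)
    (hw : ∀ t ∈ F, w t = 0) {τ : ℝ} (hτ : 0 ≤ τ) {φ : Finset Node → ℝ → ℝ} {σ : Finset Node → ℝ}
    (hφ : ∀ K x y, |φ K x - φ K y| ≤ |x - y|) (hφ0 : ∀ K, φ K 0 = 0)
    (hσ : ∀ K, σ K = 1 ∨ σ K = -1) (hφσ : ∀ K x, σ K * φ K x ≤ 0)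
    (hsplit : ∀ K : Finset Node, (∀ a ∈ K, ∀ b ∈ K, a ≤ b ∨ b ≤ a) → ∀ a ∈ K,
      τ * ‖rst (fun t => t ∉ F ∧ Kof F t = K) w‖ ≤ -σ K * ∑ u ∈ K.filter (a ≤ ·), v u →
      ∃ b ∈ K, a ≤ b ∧ τ * ‖rst (fun t => t ∉ F ∧ Kof F t = K) w‖ ≤
        σ K * ∑ u ∈ K.filter (b ≤ ·), v u)
    {S : Finset Node} (hS : IsSeg S) :
    ∃ G₁ G₂ : Finset Node, IsSeg G₁ ∧ IsSeg G₂ ∧ G₁ ⊆ S ∧ G₂ ⊆ S ∧ Disjoint G₁ G₂ ∧
      (∑ t ∈ S, (v + τ • der F w φ) t) ^ 2 ≤ (∑ t ∈ G₁, v t) ^ 2 + (∑ t ∈ G₂, v t) ^ 2 +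
        τ ^ 2 * (∑ t ∈ S, w t) ^ 2 + if Cross F S then
          2 * (τ * ‖rst (fun t => t ∉ F ∧ Kof F t = KS F S) w‖) ^ 2 else 0 := by
  have hsum : ∑ t ∈ S, (v + τ • der F w φ) t = ∑ t ∈ S, v t + τ * ∑ t ∈ S, der F w φ t := by
    simp only [Finsupp.add_apply, Finsupp.smul_apply, smul_eq_mul, Finset.sum_add_distrib,
      Finset.mul_sum]
  have hβ := sum_der_sq_le hF hw hφ hS
  have hβ' : (τ * ∑ t ∈ S, der F w φ t) ^ 2 ≤ τ ^ 2 * (∑ t ∈ S, w t) ^ 2 := by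
    rw [mul_pow]; gcongr
  rw [hsum]
  by_cases hc : Cross F S
  swap
  · refine ⟨S, ∅, hS, isSeg_empty, le_rfl, Finset.empty_subset _, Finset.disjoint_empty_right _,
      ?_⟩
    rw [if_neg hc]
    rw [Cross, not_and_or] at hc
    rcases hc with hc | hc
    · push Not at hc
      rw [Finset.sum_eq_zero fun t ht => hv t (hc t ht)]
      simpa using hβ'
    · push Not at hc
      rw [Finset.sum_eq_zero fun t ht => der_mem w φ (hc t ht)]
      have : 0 ≤ τ ^ 2 * (∑ t ∈ S, w t) ^ 2 := by positivity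
      simpa using this
  rw [if_pos hc]
  obtain ⟨⟨a₀, ha₀, ha₀F⟩, t₀, ht₀, ht₀F⟩ := hc
  obtain ⟨c, hcS, hcF, hmin, s, hsS, hsF, h1, h2⟩ :=
    sum_der hF hw hS ⟨t₀, Finset.mem_filter.mpr ⟨ht₀, ht₀F⟩⟩
  obtain ⟨a, haS, hamin⟩ := exists_min_of_chain hS.1 ⟨a₀, ha₀⟩
  have haF : a ∈ F := hF _ _ (hamin a₀ ha₀) ha₀F
  have hac : a ≤ c := hamin c hcS
  have hpot : pot' w c = 0 := by
    refine Finset.sum_eq_zero fun u hu => hw u ?_
    have huc : u < c := (Finset.mem_filter.mp hu).2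
    rcases Node.total_of_le huc.le hac with h | h
    · exact hF _ _ h haF
    · by_contra huF
      exact huc.not_ge (hmin u (hS.2 a c u haS hcS h huc.le) huF)
  rw [KS_eq hF hcS hcF hmin]
  set K := Kof F c with hK
  set r := τ * ‖rst (fun t => t ∉ F ∧ Kof F t = K) w‖ with hr
  have hKchain : ∀ x ∈ K, ∀ y ∈ K, x ≤ y ∨ y ≤ x := fun x hx y hy =>
    Node.total_of_le (Finset.mem_filter.mp hx).2 (Finset.mem_filter.mp hy).2
  have haK : a ∈ K := Finset.mem_filter.mpr ⟨haF, hac⟩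
  have hSF : ∀ b, a ≤ b → K.filter (b ≤ ·) = (S.filter (· ∈ F)).filter (b ≤ ·) := by
    intro b hab
    ext u
    simp only [hK, Kof, Finset.mem_filter]
    constructor
    · rintro ⟨⟨h1, h2⟩, h3⟩
      exact ⟨⟨hS.2 a c u haS hcS (hab.trans h3) h2, h1⟩, h3⟩
    · rintro ⟨⟨h1, h2⟩, h3⟩
      refine ⟨⟨h2, ?_⟩, h3⟩
      rcases hS.1 u h1 c hcS with h | h
      · exact h
      · exact absurd (hF _ _ h h2) hcF
  have hα : ∑ t ∈ S, v t = ∑ u ∈ K.filter (a ≤ ·), v u := by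
    rw [hSF a le_rfl, Finset.filter_filter]
    refine (Finset.sum_filter_of_ne fun t ht h0 => ⟨?_, hamin t ht⟩).symm
    by_contra h
    exact h0 (hv t h)
  have hβeq : ∑ t ∈ S, der F w φ t = φ K (pot w s) := by rw [h2, hpot, hφ0, sub_zero]
  have hwS : |∑ t ∈ S, w t| ≤ ‖rst (fun t => t ∉ F ∧ Kof F t = K) w‖ := by
    refine le_trans (le_of_eq ?_) (abs_seg_le _ hS)
    congr 1
    refine Finset.sum_congr rfl fun t ht => ?_
    by_cases htF : t ∈ F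
    · rw [rst_neg _ (fun h => h.1 htF), hw t htF]
    · rw [rst_pos (p := fun t => t ∉ F ∧ Kof F t = K) _ ⟨htF, Kof_eq hF hcF (hmin t ht htF)⟩]
  have hβr : |τ * ∑ t ∈ S, der F w φ t| ≤ r := by
    rw [abs_mul, abs_of_nonneg hτ, hr]
    gcongr
    exact (sq_le_sq.mp hβ).trans hwS
  have hβσ : σ K * (τ * ∑ t ∈ S, der F w φ t) ≤ 0 := by
    rw [hβeq, mul_left_comm]
    exact mul_nonpos_of_nonneg_of_nonpos hτ (hφσ _ _)
  by_cases hbig : r ≤ -σ K * ∑ t ∈ S, v t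
  · obtain ⟨b, hbK, hab, hb⟩ := hsplit K hKchain a haK (by rw [← hα]; exact hbig)
    have hconv : Conv (b ≤ ·) := fun _ _ _ hx _ h1 _ => hx.trans h1
    have hconv' : Conv fun u => ¬ b ≤ u := fun _ _ _ _ hy _ h2 h => hy (h.trans h2)
    refine ⟨S.filter fun u => ¬ b ≤ u, S.filter (b ≤ ·), hS.filter hconv', hS.filter hconv,
      Finset.filter_subset _ _, Finset.filter_subset _ _,
      (Finset.disjoint_filter_filter_not S S _).symm, ?_⟩
    have e1 : ∑ u ∈ K.filter (b ≤ ·), v u = ∑ u ∈ S.filter (b ≤ ·), v u := by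
      rw [hSF b hab, Finset.filter_comm]
      refine Finset.sum_filter_of_ne fun t _ h0 => ?_
      by_contra h
      exact h0 (hv t h)
    have e2 := Finset.sum_filter_add_sum_filter_not S (b ≤ ·) fun u => v u
    have e3 : ∑ u ∈ S.filter (fun u => ¬ b ≤ u), v u =
        ∑ t ∈ S, v t - ∑ u ∈ S.filter (b ≤ ·), v u := by linarith
    rw [e1] at hb
    have := real_cross (hσ K) hβσ hβr hbig hb
    rw [e3]
    nlinarith [sq_nonneg r]
  · refine ⟨S, ∅, hS, isSeg_empty, le_rfl, Finset.empty_subset _, Finset.disjoint_empty_right _,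
      ?_⟩
    have := real_small (hσ K) hβσ hβr (not_le.mp hbig)
    simp only [Finset.sum_empty]
    nlinarith

lemma norm_add_der {F : Finset Node} (hF : Low F) {v w : Y} (hv : ∀ t ∉ F, v t = 0)
    (hw : ∀ t ∈ F, w t = 0) {τ : ℝ} (hτ : 0 ≤ τ) {φ : Finset Node → ℝ → ℝ} {σ : Finset Node → ℝ}
    (hφ : ∀ K x y, |φ K x - φ K y| ≤ |x - y|) (hφ0 : ∀ K, φ K 0 = 0)
    (hσ : ∀ K, σ K = 1 ∨ σ K = -1) (hφσ : ∀ K x, σ K * φ K x ≤ 0)
    (hsplit : ∀ K : Finset Node, (∀ a ∈ K, ∀ b ∈ K, a ≤ b ∨ b ≤ a) → ∀ a ∈ K,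
      τ * ‖rst (fun t => t ∉ F ∧ Kof F t = K) w‖ ≤ -σ K * ∑ u ∈ K.filter (a ≤ ·), v u →
      ∃ b ∈ K, a ≤ b ∧ τ * ‖rst (fun t => t ∉ F ∧ Kof F t = K) w‖ ≤
        σ K * ∑ u ∈ K.filter (b ≤ ·), v u) :
    ‖v + τ • der F w φ‖ ^ 2 ≤ ‖v‖ ^ 2 + 3 * τ ^ 2 * ‖w‖ ^ 2 := by
  refine norm_sq_le fun G hG => ?_
  have h := fun S (hS : IsSeg S) => seg_estimate hF hv hw hτ hφ hφ0 hσ hφσ hsplit hS
  choose! G₁ G₂ h1 h2 h3 h4 h5 h6 using h
  have e1 := key v (G ×ˢ (Finset.univ : Finset Bool)) (fun x => if x.2 then G₁ x.1 else G₂ x.1)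
    (by
      rintro ⟨S, b⟩ hx
      have hS := hG.1 S (Finset.mem_product.mp hx).1
      cases b
      · exact h2 S hS
      · exact h1 S hS) (by
      rintro ⟨S, b⟩ hx ⟨S', b'⟩ hy hne
      have hS := hG.1 S (Finset.mem_product.mp hx).1
      have hS' := hG.1 S' (Finset.mem_product.mp hy).1
      by_cases e : S = S'
      · subst e
        cases b <;> cases b'
        · exact absurd rfl hne
        · exact (h5 S hS).symm
        · exact h5 S hS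
        · exact absurd rfl hne
      · have hd := hG.2 S (Finset.mem_product.mp hx).1 S' (Finset.mem_product.mp hy).1 e
        refine hd.mono ?_ ?_
        · cases b
          · exact h4 S hS
          · exact h3 S hS
        · cases b'
          · exact h4 S' hS'
          · exact h3 S' hS')
  rw [Finset.sum_product] at e1
  simp only [Fintype.sum_bool, if_true, Bool.false_eq_true, if_false] at e1
  have e2 : ∑ S ∈ G, (∑ t ∈ S, w t) ^ 2 ≤ ‖w‖ ^ 2 := by rw [norm_sq]; exact Q_le_jsq w hG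
  have e3 := lower_est w (G.filter (Cross F)) (fun S t => t ∉ F ∧ Kof F t = KS F S)
    (fun S _ => conv_Kof hF _) (by
      intro S hS S' hS' hne t h h'
      rw [Finset.mem_filter] at hS hS'
      exact KS_ne hF (hG.1 S hS.1) (hG.1 S' hS'.1) hS.2 hS'.2 (hG.2 S hS.1 S' hS'.1 hne)
        (h.2.symm.trans h'.2))
  refine (Finset.sum_le_sum fun S hS => h6 S (hG.1 S hS)).trans ?_
  rw [Finset.sum_add_distrib, Finset.sum_add_distrib, ← Finset.mul_sum, ← Finset.sum_filter]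
  simp only [mul_pow, ← Finset.mul_sum]
  nlinarith [sq_nonneg τ]

/-- The midpoint estimate. -/
theorem midpoint {F : Finset Node} (hF : Low F) {v w : Y} (hv : ∀ t ∉ F, v t = 0)
    (hw : ∀ t ∈ F, w t = 0) {τ : ℝ} (hτ : 0 ≤ τ) :
    ∃ u u' : Y, u - u' = w ∧ (∀ t ∈ F, u t = 0) ∧ (∀ t ∈ F, u' t = 0) ∧ ‖u‖ ≤ ‖w‖ ∧ ‖u'‖ ≤ ‖w‖ ∧
      ‖v + τ • u‖ ^ 2 ≤ ‖v‖ ^ 2 + 3 * τ ^ 2 * ‖w‖ ^ 2 ∧
      ‖v + τ • u'‖ ^ 2 ≤ ‖v‖ ^ 2 + 3 * τ ^ 2 * ‖w‖ ^ 2 := by
  have h := fun K : Finset Node => exists_sign K (fun a => ∑ u ∈ K.filter (a ≤ ·), v u)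
    (τ * ‖rst (fun t => t ∉ F ∧ Kof F t = K) w‖)
  choose σ hσ hsplit using h
  have hl : ∀ (e : ℝ), (e = 1 ∨ e = -1) → ∀ K x y,
      |-σ K * max (e * σ K * x) 0 - -σ K * max (e * σ K * y) 0| ≤ |x - y| := by
    intro e he K x y
    have h1 := abs_max_sub_max_le_abs (e * σ K * x) (e * σ K * y) 0
    have h2 : |σ K| = 1 := by rcases hσ K with h | h <;> simp [h]
    have h3 : |e| = 1 := by rcases he with h | h <;> simp [h]
    rw [← mul_sub, abs_mul, abs_mul, h2, h3, one_mul, one_mul] at h1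
    rw [← mul_sub, abs_mul, abs_neg, h2, one_mul]
    exact h1
  have hs : ∀ (e : ℝ) K x, σ K * (-σ K * max (e * σ K * x) 0) ≤ 0 := by
    intro e K x
    have := le_max_right (e * σ K * x) 0
    nlinarith [mul_self_nonneg (σ K)]
  refine ⟨der F w fun K x => -σ K * max (-1 * σ K * x) 0,
    der F w fun K x => -σ K * max (1 * σ K * x) 0, ?_, fun t ht => der_mem _ _ ht,
    fun t ht => der_mem _ _ ht, norm_der_le hF hw (hl _ (Or.inr rfl)),
    norm_der_le hF hw (hl _ (Or.inl rfl)),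
    norm_add_der hF hv hw hτ (hl _ (Or.inr rfl)) (by simp) hσ (hs _) hsplit,
    norm_add_der hF hv hw hτ (hl _ (Or.inl rfl)) (by simp) hσ (hs _) hsplit⟩
  ext t
  rw [Finsupp.sub_apply]
  by_cases ht : t ∈ F
  · rw [der_mem _ _ ht, der_mem _ _ ht, hw t ht, sub_zero]
  · rw [der_notMem _ _ ht, der_notMem _ _ ht, ← pot_sub w t]
    have : ∀ x : ℝ, -σ (Kof F t) * max (-1 * σ (Kof F t) * x) 0 -
        -σ (Kof F t) * max (1 * σ (Kof F t) * x) 0 = x := by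
      intro x
      rcases hσ (Kof F t) with h | h <;> rw [h] <;> rcases le_total x 0 with hx | hx <;>
        simp [hx]
    linarith [this (pot w t), this (pot' w t)]

end Vale.Agent.P069
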