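import Vale.Agent.P069.Defs
import Vale.Agent.P069.Dual
import Vale.Agent.P069.Midpoint

/-!
The dual of the James forest space is AMUC and has no equivalent AUC norm.
-/

namespace Vale.Agent.P069

open Classical

lemma vanX_mem_cof (F : Finset Node) : vanX (· ∈ F) ∈ Cof X := by
  let L : X →L[ℝ] (F → ℝ) := ContinuousLinearMap.pi fun t => ContinuousLinearMap.apply ℝ ℝ (ev t)
  have e : vanX (· ∈ F) = LinearMap.ker (L : X →ₗ[ℝ] (F → ℝ)) := by
    ext f
    simp only [LinearMap.mem_ker, funext_iff]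
    exact ⟨fun h t => h t t.2, fun h t ht => h ⟨t, ht⟩⟩
  rw [e]
  exact ⟨L.isClosed_ker, (LinearMap.quotKerEquivRange (L : X →ₗ[ℝ] (F → ℝ))).symm.finiteDimensional⟩

lemma exists_almost_norming (x : X) (hx : ‖x‖ = 1) {e : ℝ} (he : 0 < e) :
    ∃ v : Y, ‖v‖ ≤ 1 ∧ 1 - e ≤ x v := by
  obtain ⟨v, hv, h⟩ := x.exists_lt_apply_of_lt_opNorm (r := 1 - e) (by linarith)
  rw [Real.norm_eq_abs] at h
  rcases le_total 0 (x v) with h0 | h0
  · exact ⟨v, hv.le, by rw [abs_of_nonneg h0] at h; exact h.le⟩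
  · exact ⟨-v, by simpa using hv.le, by rw [abs_of_nonpos h0] at h; simpa using h.le⟩

lemma amuc_real {s M p q q' r r' : ℝ} (hs : 0 < s) (hs1 : s ≤ 1) (hp : 1 - s ^ 2 / 100 ≤ p)
    (hq : -(s ^ 2 / 100) ≤ q) (hq' : -(s ^ 2 / 100) ≤ q') (hr : 1 - s ^ 2 / 100 ≤ r - r')
    (b1 : p + s * 0 + s / 6 * (q + s * r) ≤ M * (1 + s ^ 2 / 24))
    (b2 : p - s * 0 + s / 6 * (q' - s * r') ≤ M * (1 + s ^ 2 / 24)) : 1 + s ^ 2 / 100 ≤ M := by
  have d1 : s * (s / 6) * (1 - s ^ 2 / 100) ≤ s * (s / 6) * (r - r') := by gcongr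
  have d1' : s / 6 * (-(s ^ 2 / 100)) ≤ s / 6 * q := by gcongr
  have d1'' : s / 6 * (-(s ^ 2 / 100)) ≤ s / 6 * q' := by gcongr
  by_contra hlt
  push Not at hlt
  have d2 : M * (1 + s ^ 2 / 24) ≤ (1 + s ^ 2 / 100) * (1 + s ^ 2 / 24) := by gcongr
  have d3 : s ^ 2 ≤ 1 := pow_le_one₀ hs.le hs1
  have d4 : 0 < s ^ 2 := by positivity
  have d5 : s * s ^ 2 ≤ s ^ 2 := by nlinarith
  have d6 : s ^ 2 * s ^ 2 ≤ s ^ 2 := by nlinarith
  linarith

lemma amuc_aux {s : ℝ} (hs : 0 < s) (hs1 : s ≤ 1) (x : X) (hx : ‖x‖ = 1) :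
    ∃ F ∈ Cof X, ∀ y ∈ F, ‖y‖ = 1 → 1 + s ^ 2 / 100 ≤ max ‖x + s • y‖ ‖x - s • y‖ := by
  set η := s ^ 2 / 100 with hη
  have hη0 : 0 < η := by positivity
  obtain ⟨v, hv1, hv2⟩ := exists_almost_norming x hx hη0
  obtain ⟨F₁, -, hF₁⟩ := dense_X x hη0
  obtain ⟨F, hF, hFF⟩ := exists_low (F₁ ∪ v.support)
  refine ⟨_, vanX_mem_cof F, fun y hy hy1 => ?_⟩
  obtain ⟨w₀, hw1, hw2⟩ := exists_almost_norming y hy1 hη0
  have hy' : ∀ t, ¬ t ∉ F → y (ev t) = 0 := fun t ht => hy t (not_not.mp ht)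
  rw [apply_eq_rst hy'] at hw2
  set w := rst (· ∉ F) w₀ with hw
  have hw3 : ‖w‖ ≤ 1 := (norm_rst_le hF.conv_not w₀).trans hw1
  have hvF : ∀ t ∉ F, v t = 0 := fun t ht => by
    by_contra h
    exact ht (hFF (Finset.mem_union_right _ (Finsupp.mem_support_iff.mpr h)))
  obtain ⟨u, u', huu, hu, hu', hun, hun', h1, h2⟩ := midpoint hF hvF (w := w)
    (fun t ht => rst_neg _ (not_not.mpr ht)) (τ := s / 6) (by positivity)
  have hn : ∀ z : Y, ‖v + (s / 6) • z‖ ^ 2 ≤ ‖v‖ ^ 2 + 3 * (s / 6) ^ 2 * ‖w‖ ^ 2 →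
      ‖v + (s / 6) • z‖ ≤ 1 + s ^ 2 / 24 := by
    intro z hz
    refine le_of_sq_le_sq (hz.trans ?_) (by positivity)
    have a1 : ‖v‖ ^ 2 ≤ 1 := pow_le_one₀ (norm_nonneg _) hv1
    have a2 : ‖w‖ ^ 2 ≤ 1 := pow_le_one₀ (norm_nonneg _) hw3
    nlinarith [sq_nonneg s, sq_nonneg (s ^ 2)]
  have hxu : ∀ z : Y, (∀ t ∈ F, z t = 0) → ‖z‖ ≤ ‖w‖ → -η ≤ x z := by
    intro z hz hzn
    have := hF₁ z fun t ht => hz t (hFF (Finset.mem_union_left _ ht))
    have h3 := neg_abs_le (x z)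
    nlinarith
  have hyv : y v = 0 := apply_eq_zero fun t => by
    by_cases ht : t ∈ F
    · exact Or.inl (hy t ht)
    · exact Or.inr (hvF t ht)
  set M := max ‖x + s • y‖ ‖x - s • y‖ with hM
  have hM0 : 0 ≤ M := (norm_nonneg _).trans (le_max_left _ _)
  have b1 : (x + s • y) (v + (s / 6) • u) ≤ M * (1 + s ^ 2 / 24) := by
    refine (le_abs_self _).trans (((x + s • y).le_opNorm _).trans ?_)
    gcongr
    · exact le_max_left _ _
    · exact hn u h1
  have b2 : (x - s • y) (v + (s / 6) • u') ≤ M * (1 + s ^ 2 / 24) := by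
    refine (le_abs_self _).trans (((x - s • y).le_opNorm _).trans ?_)
    gcongr
    · exact le_max_right _ _
    · exact hn u' h2
  have hyw : y u - y u' = y w := by rw [← map_sub, huu]
  simp only [add_apply, sub_apply, smul_apply, map_add, map_smul, smul_eq_mul, hyv] at b1 b2
  have c1 := hxu u hu hun
  have c2 := hxu u' hu' hun'
  exact amuc_real hs hs1 hv2 c1 c2 (hyw ▸ hw2) b1 b2

lemma max_mono {E : Type*} [NormedAddCommGroup E] [NormedSpace ℝ E] (x y : E) {s t : ℝ}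
    (hs : 0 < s) (hst : s ≤ t) : max ‖x + s • y‖ ‖x - s • y‖ ≤ max ‖x + t • y‖ ‖x - t • y‖ := by
  have ht : 0 < t := hs.trans_le hst
  have aux : ∀ a : ℝ, |a| ≤ t → ‖x + a • y‖ ≤ max ‖x + t • y‖ ‖x - t • y‖ := by
    intro a ha
    have h := abs_le.mp ha
    have e : x + a • y = ((t + a) / (2 * t)) • (x + t • y) + ((t - a) / (2 * t)) • (x - t • y) := by
      match_scalars <;> field_simp <;> ring
    have p1 : 0 ≤ (t + a) / (2 * t) := div_nonneg (by linarith [h.1]) (by positivity)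
    have p2 : 0 ≤ (t - a) / (2 * t) := div_nonneg (by linarith [h.2]) (by positivity)
    have p3 : (t + a) / (2 * t) + (t - a) / (2 * t) = 1 := by field_simp; ring
    rw [e]
    refine (norm_add_le _ _).trans ?_
    rw [norm_smul, norm_smul, Real.norm_of_nonneg p1, Real.norm_of_nonneg p2]
    calc _ ≤ (t + a) / (2 * t) * max ‖x + t • y‖ ‖x - t • y‖ +
          (t - a) / (2 * t) * max ‖x + t • y‖ ‖x - t • y‖ := by
          gcongr
          · exact le_max_left _ _
          · exact le_max_right _ _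
      _ = _ := by rw [← add_mul, p3, one_mul]
  refine max_le (aux s (by rw [abs_of_pos hs]; exact hst)) ?_
  have := aux (-s) (by rw [abs_neg, abs_of_pos hs]; exact hst)
  rwa [neg_smul, ← sub_eq_add_neg] at this

theorem amuc : AMUC (normSeminorm ℝ X) := by
  intro t ht
  have hs : 0 < min t 1 := lt_min ht one_pos
  refine lt_of_lt_of_le (b := (((min t 1) ^ 2 / 100 : ℝ) : EReal))
    (EReal.coe_pos.mpr (by positivity)) ?_
  refine le_iInf₂ fun x hx => ?_
  obtain ⟨F, hF, h⟩ := amuc_aux hs (min_le_right _ _) x hx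
  refine le_iSup₂_of_le F hF (le_iInf₂ fun y hy => ?_)
  rw [EReal.coe_le_coe_iff]
  have h1 := (h y hy.1 hy.2).trans (max_mono x y hs (min_le_left _ _))
  simp only [coe_normSeminorm]
  linarith

lemma exists_near {E : Type*} [NormedAddCommGroup E] [NormedSpace ℝ E] {F : Submodule ℝ E}
    (hF : F ∈ Cof E) (y : ℕ → E)
    (hy : ∀ G : StrongDual ℝ E, Filter.Tendsto (fun j => G (y j)) Filter.atTop (nhds 0)) {e : ℝ}
    (he : 0 < e) : ∃ j, ∃ y' ∈ F, ‖y j - y'‖ < e := by
  have : IsClosed (F : Set E) := hF.1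
  have : FiniteDimensional ℝ (E ⧸ F) := hF.2
  let b := Module.finBasis ℝ (E ⧸ F)
  have h1 : Filter.Tendsto (fun j => F.mkQ (y j)) Filter.atTop (nhds 0) := by
    have h2 : ∀ i, Filter.Tendsto (fun j => b.coord i (F.mkQ (y j)) • b i) Filter.atTop
        (nhds 0) := by
      intro i
      have hc : Continuous ((b.coord i).comp F.mkQ) :=
        (LinearMap.continuous_of_finiteDimensional (b.coord i)).comp continuous_quot_mk
      simpa using (hy ⟨(b.coord i).comp F.mkQ, hc⟩).smul_const (b i)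
    have h3 := tendsto_finsetSum Finset.univ fun i _ => h2 i
    simp only [Finset.sum_const_zero, Module.Basis.coord_apply, Module.Basis.sum_repr] at h3
    exact h3
  obtain ⟨j, hj⟩ := ((tendsto_zero_iff_norm_tendsto_zero.mp h1).eventually
    (gt_mem_nhds (half_pos he))).exists
  obtain ⟨m, hm1, hm2⟩ := Submodule.Quotient.norm_mk_lt (F.mkQ (y j)) (half_pos he)
  refine ⟨j, y j - m, ?_, ?_⟩
  · exact (Submodule.Quotient.eq F).mp hm1.symm
  · rw [sub_sub_cancel]; linarith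

lemma co_weakly_null (c : ℕ → Node) (hc : Function.Injective c) (G : StrongDual ℝ X) :
    Filter.Tendsto (fun j => G (co (c j))) Filter.atTop (nhds 0) := by
  have hs : Summable fun t => G (co t) ^ 2 :=
    summable_of_sum_le (fun _ => sq_nonneg _) (dual_coef_sq_le G)
  have h1 := (hs.comp_injective hc).tendsto_atTop_zero
  have h2 := h1.sqrt
  simp only [Function.comp, Real.sqrt_sq_eq_abs, Real.sqrt_zero] at h2
  exact tendsto_zero_iff_abs_tendsto_zero _ |>.mpr h2

lemma norm_segF_le {S : Finset Node} (hS : IsSeg S) : ‖∑ t ∈ S, co t‖ ≤ 1 := by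
  refine ContinuousLinearMap.opNorm_le_bound _ zero_le_one fun z => ?_
  simpa [co_apply] using abs_seg_le z hS

lemma one_le_norm_segF {S : Finset Node} {a : Node} (ha : a ∈ S) : 1 ≤ ‖∑ t ∈ S, co t‖ := by
  have h := (∑ t ∈ S, co t).le_opNorm (ev a)
  have e : (∑ t ∈ S, co t) (ev a) = 1 := by
    simp [co_apply, ev, Finsupp.single_apply, ha]
  rw [e, norm_one] at h
  have := norm_single_le a
  exact h.trans (mul_le_of_le_one_right (norm_nonneg _) this)

lemma isSeg_of_iff {S : Finset Node} {p : Node} (h : ∀ u, u ∈ S ↔ u ≤ p) : IsSeg S :=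
  ⟨fun a ha b hb => Node.total_of_le ((h a).mp ha) ((h b).mp hb),
    fun _ b c _ hb _ h2 => (h c).mpr (h2.trans ((h b).mp hb))⟩

lemma auc_step {E : Type*} [NormedAddCommGroup E] [NormedSpace ℝ E] (N : Seminorm ℝ E)
    {a b d : ℝ} (ha : 0 < a) (hb : 0 < b) (hd : 0 < d)
    (h : ∀ x, N x = 1 → ∃ F ∈ Cof E, ∀ y ∈ F, N y = 1 → 1 + d ≤ N (x + (a / (2 * b)) • y))
    (x : E) (hx1 : a ≤ N x) (hx2 : N x ≤ b) :
    ∃ F ∈ Cof E, ∀ y ∈ F, a / 2 ≤ N y → N x + a * d ≤ N (x + y) := by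
  have hx0 : 0 < N x := ha.trans_le hx1
  obtain ⟨F, hF, hF'⟩ := h ((N x)⁻¹ • x) (by
    rw [map_smul_eq_mul, Real.norm_of_nonneg (by positivity)]; field_simp)
  refine ⟨F, hF, fun y hy hy1 => ?_⟩
  have hy0 : 0 < N y := (half_pos ha).trans_le hy1
  have h1 := hF' ((N y)⁻¹ • y) (F.smul_mem _ hy) (by
    rw [map_smul_eq_mul, Real.norm_of_nonneg (by positivity)]; field_simp)
  set l : ℝ := a / (2 * b) * N x / N y with hl
  have hl0 : 0 < l := by positivity
  have hl1 : l ≤ 1 := by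
    rw [hl, div_le_one hy0]
    calc a / (2 * b) * N x ≤ a / (2 * b) * b := by gcongr
      _ = a / 2 := by field_simp
      _ ≤ N y := hy1
  have e : (N x)⁻¹ • x + (a / (2 * b)) • (N y)⁻¹ • y =
      (N x)⁻¹ • ((1 - l) • x + l • (x + y)) := by
    rw [hl]
    match_scalars <;> field_simp <;> ring
  rw [e, map_smul_eq_mul, Real.norm_of_nonneg (by positivity), le_inv_mul_iff₀ hx0] at h1
  have h2 : N ((1 - l) • x + l • (x + y)) ≤ (1 - l) * N x + l * N (x + y) := by
    refine (map_add_le_add N _ _).trans ?_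
    rw [map_smul_eq_mul, map_smul_eq_mul, Real.norm_of_nonneg (by linarith),
      Real.norm_of_nonneg hl0.le]
  have h3 : N x * d ≤ l * (N (x + y) - N x) := by nlinarith
  have h4 : a * d ≤ N x * d := by gcongr
  have h5 : 0 < l * (N (x + y) - N x) := lt_of_lt_of_le (by positivity) h3
  have h6 : 0 < N (x + y) - N x := (mul_pos_iff_of_pos_left hl0).mp h5
  nlinarith

theorem not_auc (N : Seminorm ℝ X) (hN : IsEquivalentNorm N) : ¬ AUC N := by
  intro hA
  obtain ⟨a, b, ha, hb, hab⟩ := hN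
  obtain ⟨d, hd0, hd⟩ := EReal.lt_iff_exists_real_btwn.mp (hA (a / (2 * b)) (by positivity))
  have hd0' : 0 < d := EReal.coe_pos.mp hd0
  have h : ∀ x, N x = 1 → ∃ F ∈ Cof X, ∀ y ∈ F, N y = 1 →
      1 + d ≤ N (x + (a / (2 * b)) • y) := by
    intro x hx
    have h1 := hd.trans_le (iInf₂_le x hx)
    obtain ⟨F, h2⟩ := lt_iSup_iff.mp h1
    obtain ⟨hF, h3⟩ := lt_iSup_iff.mp h2
    refine ⟨F, hF, fun y hy hy1 => ?_⟩
    have h4 := h3.trans_le (iInf₂_le y ⟨hy, hy1⟩)
    rw [EReal.coe_lt_coe_iff] at h4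
    linarith
  obtain ⟨n, hn⟩ := exists_nat_gt (b / (a * d / 2))
  have main : ∀ k ≤ n, ∃ p : Node, p.tr = n ∧ p.path.length = k ∧ ∃ S : Finset Node,
      (∀ u, u ∈ S ↔ u ≤ p) ∧ k * (a * d / 2) ≤ N (∑ t ∈ S, co t) := by
    intro k
    induction k with
    | zero =>
      intro _
      refine ⟨⟨n, [], by simp⟩, rfl, rfl, {⟨n, [], by simp⟩}, fun u => ?_, by simp⟩
      rw [Finset.mem_singleton]
      refine ⟨fun h => h.le, fun h => Node.ext h.1 (List.suffix_nil.mp h.2)⟩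
    | succ k ih =>
      intro hk
      obtain ⟨p, hp1, hp2, S, hS, hS2⟩ := ih (by omega)
      have hpS : p ∈ S := (hS p).mpr le_rfl
      have n1 := norm_segF_le (isSeg_of_iff hS)
      have n2 := one_le_norm_segF hpS
      obtain ⟨F, hF, hF'⟩ := auc_step N ha hb hd0' h (∑ t ∈ S, co t)
        (le_trans (by nlinarith) (hab _).1) ((hab _).2.trans (by nlinarith))
      let c : ℕ → Node := fun j => ⟨n, j :: p.path, by simp only [List.length_cons]; omega⟩
      have hc : Function.Injective c := fun i j hij => by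
        have := congrArg Node.path hij
        simpa [c] using this
      obtain ⟨j, y', hy', hj⟩ := exists_near hF (fun j => co (c j)) (co_weakly_null c hc)
        (e := min (1 / 2) (a * d / 2 / b)) (by positivity)
      have n3 : 1 ≤ ‖co (c j)‖ := by
        simpa using one_le_norm_segF (Finset.mem_singleton_self (c j))
      have n4 : 1 / 2 ≤ ‖y'‖ := by
        have := norm_sub_norm_le (co (c j)) y'
        linarith [min_le_left (1 / 2 : ℝ) (a * d / 2 / b)]
      have n5 := hF' y' hy' (le_trans (by nlinarith) (hab y').1)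
      have n6 : N (co (c j) - y') ≤ a * d / 2 := by
        refine (hab _).2.trans ?_
        calc b * ‖co (c j) - y'‖ ≤ b * (a * d / 2 / b) := by
              gcongr; exact hj.le.trans (min_le_right _ _)
          _ = a * d / 2 := by field_simp
      have hnot : c j ∉ S := by
        intro hmem
        have := ((hS _).mp hmem).2.length_le
        simp [c] at this
      refine ⟨c j, rfl, by simp [c, hp2], insert (c j) S, fun u => ?_, ?_⟩
      · rw [Finset.mem_insert, hS, Node.le_def, Node.le_def]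
        simp only [c, List.suffix_cons_iff, hp1]
        constructor
        · rintro (rfl | h)
          · exact ⟨rfl, Or.inl rfl⟩
          · exact ⟨h.1, Or.inr h.2⟩
        · rintro ⟨h1, h2 | h2⟩
          · exact Or.inl (Node.ext h1 h2)
          · exact Or.inr ⟨h1, h2⟩
      · rw [Finset.sum_insert hnot]
        have n7 : N (∑ t ∈ S, co t + y') ≤ N (co (c j) + ∑ t ∈ S, co t) + N (co (c j) - y') := by
          have e : ∑ t ∈ S, co t + y' = (co (c j) + ∑ t ∈ S, co t) - (co (c j) - y') := by abel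
          rw [e]
          exact map_sub_le_add N _ _
        push_cast
        linarith
  obtain ⟨p, -, -, S, hS, hS2⟩ := main n le_rfl
  have n1 := norm_segF_le (isSeg_of_iff hS)
  have n2 := (hab (∑ t ∈ S, co t)).2
  rw [div_lt_iff₀ (by positivity)] at hn
  nlinarith

lemma isEquivalentNorm_norm {E : Type*} [NormedAddCommGroup E] [NormedSpace ℝ E] :
    IsEquivalentNorm (normSeminorm ℝ E) := ⟨1, 1, one_pos, one_pos, fun x => by simp⟩

theorem not_finiteDimensional : ¬ FiniteDimensional ℝ X := by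
  intro hfin
  refine not_auc _ isEquivalentNorm_norm fun t _ => ?_
  refine lt_of_lt_of_le (b := ⊤) EReal.zero_lt_top (le_iInf₂ fun x _ => ?_)
  refine le_iSup₂_of_le ⊥ ⟨by simp, inferInstance⟩ (le_iInf₂ fun y hy => ?_)
  have h1 : y = 0 := by simpa using hy.1
  have h2 := hy.2
  simp [h1] at h2

end Vale.Agent.P069
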