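import Vale.Agent.P069.Tree

/-!
The James tree norm on finitely supported vectors of the forest.
-/

namespace Vale.Agent.P069

open Classical

/-- Finitely supported vectors on the forest. -/
abbrev Y : Type := Node →₀ ℝ

/-- Admissible families: pairwise disjoint segments. -/
def Adm (G : Finset (Finset Node)) : Prop :=
  (∀ S ∈ G, IsSeg S) ∧ ∀ S ∈ G, ∀ S' ∈ G, S ≠ S' → Disjoint S S'

/-- The quadratic form of a family. -/
noncomputable def Q (v : Y) (G : Finset (Finset Node)) : ℝ := ∑ S ∈ G, (∑ t ∈ S, v t) ^ 2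

lemma adm_empty : Adm ∅ := ⟨by simp, by simp⟩

instance : Nonempty {G // Adm G} := ⟨⟨∅, adm_empty⟩⟩

lemma Q_nonneg (v : Y) (G : Finset (Finset Node)) : 0 ≤ Q v G :=
  Finset.sum_nonneg fun _ _ => sq_nonneg _

lemma sum_le_support (v : Y) {g : ℝ → ℝ} (hg0 : g 0 = 0) (hg : ∀ x, 0 ≤ g x) (B : Finset Node) :
    ∑ t ∈ B, g (v t) ≤ ∑ t ∈ v.support, g (v t) := by
  calc ∑ t ∈ B, g (v t) = ∑ t ∈ B ∩ v.support, g (v t) := by
        refine (Finset.sum_subset Finset.inter_subset_left fun t ht ht' => ?_).symm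
        have : t ∉ v.support := fun h => ht' (Finset.mem_inter.mpr ⟨ht, h⟩)
        rw [Finsupp.notMem_support_iff.mp this, hg0]
    _ ≤ _ := Finset.sum_le_sum_of_subset_of_nonneg Finset.inter_subset_right fun _ _ _ => hg _

lemma Q_le (v : Y) {G : Finset (Finset Node)} (hG : Adm G) :
    Q v G ≤ (∑ t ∈ v.support, |v t|) ^ 2 := by
  have h1 : Q v G ≤ (∑ S ∈ G, |∑ t ∈ S, v t|) ^ 2 := by
    have := Finset.sum_sq_le_sq_sum_of_nonneg (s := G) (f := fun S => |∑ t ∈ S, v t|)
      (fun _ _ => abs_nonneg _)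
    simpa [Q] using this
  refine h1.trans ?_
  gcongr
  calc ∑ S ∈ G, |∑ t ∈ S, v t| ≤ ∑ S ∈ G, ∑ t ∈ S, |v t| :=
        Finset.sum_le_sum fun S _ => Finset.abs_sum_le_sum_abs _ _
    _ = ∑ t ∈ G.biUnion id, |v t| := by
        rw [Finset.sum_biUnion]
        · rfl
        · intro S hS S' hS' h
          exact hG.2 S hS S' hS' h
    _ ≤ _ := sum_le_support v abs_zero abs_nonneg _

lemma Q_bdd (v : Y) : BddAbove (Set.range fun G : {G // Adm G} => Q v G) :=
  ⟨_, by rintro _ ⟨G, rfl⟩; exact Q_le v G.2⟩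

/-- The square of the James tree norm. -/
noncomputable def jsq (v : Y) : ℝ := ⨆ G : {G // Adm G}, Q v G

lemma Q_le_jsq (v : Y) {G : Finset (Finset Node)} (hG : Adm G) : Q v G ≤ jsq v :=
  le_ciSup (Q_bdd v) ⟨G, hG⟩

lemma jsq_nonneg (v : Y) : 0 ≤ jsq v := (Q_nonneg v ∅).trans (Q_le_jsq v adm_empty)

lemma jsq_le {v : Y} {C : ℝ} (h : ∀ G, Adm G → Q v G ≤ C) : jsq v ≤ C :=
  ciSup_le fun G => h G G.2

lemma jsq_add (v w : Y) : Real.sqrt (jsq (v + w)) ≤ Real.sqrt (jsq v) + Real.sqrt (jsq w) := by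
  rw [Real.sqrt_le_left (by positivity)]
  refine jsq_le fun G hG => ?_
  have h1 := Q_le_jsq v hG
  have h2 := Q_le_jsq w hG
  have h3 : ∑ S ∈ G, (∑ t ∈ S, v t) * (∑ t ∈ S, w t) ≤ Real.sqrt (Q v G) * Real.sqrt (Q w G) :=
    Real.sum_mul_le_sqrt_mul_sqrt G _ _
  have h4 : Real.sqrt (Q v G) * Real.sqrt (Q w G) ≤ Real.sqrt (jsq v) * Real.sqrt (jsq w) := by
    gcongr
  have h5 : Q (v + w) G = Q v G + 2 * (∑ S ∈ G, (∑ t ∈ S, v t) * (∑ t ∈ S, w t)) + Q w G := by
    rw [Q, Q, Q, Finset.mul_sum, ← Finset.sum_add_distrib, ← Finset.sum_add_distrib]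
    refine Finset.sum_congr rfl fun S _ => ?_
    simp only [Finsupp.add_apply, Finset.sum_add_distrib]
    ring
  rw [h5, add_sq, Real.sq_sqrt (jsq_nonneg v), Real.sq_sqrt (jsq_nonneg w)]
  linarith

lemma Q_smul (c : ℝ) (v : Y) (G : Finset (Finset Node)) : Q (c • v) G = c ^ 2 * Q v G := by
  simp only [Q, Finsupp.smul_apply, smul_eq_mul, ← Finset.mul_sum, mul_pow]

lemma jsq_smul_le (c : ℝ) (v : Y) : jsq (c • v) ≤ c ^ 2 * jsq v :=
  jsq_le fun G hG => by rw [Q_smul]; gcongr; exact Q_le_jsq v hG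

lemma adm_single {S : Finset Node} (hS : IsSeg S) : Adm {S} :=
  ⟨by simpa using hS, by simp⟩

lemma seg_sq_le_jsq (v : Y) {S : Finset Node} (hS : IsSeg S) : (∑ t ∈ S, v t) ^ 2 ≤ jsq v := by
  simpa [Q] using Q_le_jsq v (adm_single hS)

/-- The James tree norm. -/
noncomputable def jnorm : AddGroupNorm Y where
  toFun v := Real.sqrt (jsq v)
  map_zero' := by
    rw [Real.sqrt_eq_zero (jsq_nonneg _)]
    exact le_antisymm (jsq_le fun G _ => by simp [Q]) (jsq_nonneg _)
  add_le' := jsq_add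
  neg' v := by
    congr 1
    simp only [jsq, Q, Finsupp.neg_apply, Finset.sum_neg_distrib, neg_sq]
  eq_zero_of_map_eq_zero' v h := by
    rw [Real.sqrt_eq_zero (jsq_nonneg _)] at h
    ext t
    have := seg_sq_le_jsq v (isSeg_singleton t)
    rw [h, Finset.sum_singleton] at this
    simpa using pow_eq_zero_iff (two_ne_zero) |>.mp (le_antisymm this (sq_nonneg _))

noncomputable instance : NormedAddCommGroup Y := jnorm.toNormedAddCommGroup

lemma norm_def (v : Y) : ‖v‖ = Real.sqrt (jsq v) := rfl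

lemma norm_sq (v : Y) : ‖v‖ ^ 2 = jsq v := Real.sq_sqrt (jsq_nonneg v)

noncomputable instance : NormedSpace ℝ Y where
  norm_smul_le c v := by
    rw [norm_def, norm_def, Real.norm_eq_abs, ← Real.sqrt_sq_eq_abs, ← Real.sqrt_mul (sq_nonneg c)]
    exact Real.sqrt_le_sqrt (jsq_smul_le c v)

lemma norm_sq_le {v : Y} {C : ℝ} (h : ∀ G, Adm G → Q v G ≤ C) : ‖v‖ ^ 2 ≤ C := by
  rw [norm_sq]; exact jsq_le h

/-- The defining inequality for an indexed family of disjoint segments. -/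
lemma key {ι : Type*} (v : Y) (s : Finset ι) (S : ι → Finset Node) (hS : ∀ i ∈ s, IsSeg (S i))
    (hd : ∀ i ∈ s, ∀ j ∈ s, i ≠ j → Disjoint (S i) (S j)) :
    ∑ i ∈ s, (∑ t ∈ S i, v t) ^ 2 ≤ ‖v‖ ^ 2 := by
  rw [norm_sq]
  have hadm : Adm ((s.filter fun i => (S i).Nonempty).image S) := by
    constructor
    · intro T hT
      obtain ⟨i, hi, rfl⟩ := Finset.mem_image.mp hT
      exact hS i (Finset.mem_filter.mp hi).1
    · intro T hT T' hT' h
      obtain ⟨i, hi, rfl⟩ := Finset.mem_image.mp hT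
      obtain ⟨j, hj, rfl⟩ := Finset.mem_image.mp hT'
      exact hd i (Finset.mem_filter.mp hi).1 j (Finset.mem_filter.mp hj).1 fun e => h (e ▸ rfl)
  refine le_trans (le_of_eq ?_) (Q_le_jsq v hadm)
  rw [Q, Finset.sum_image, Finset.sum_filter]
  · refine Finset.sum_congr rfl fun i _ => ?_
    split_ifs with h
    · rfl
    · rw [Finset.not_nonempty_iff_eq_empty.mp h]; simp
  · intro i hi j hj h
    by_contra hij
    have hi' := Finset.mem_filter.mp hi
    have hj' := Finset.mem_filter.mp hj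
    have := hd i hi'.1 j hj'.1 hij
    rw [h, disjoint_self] at this
    exact hj'.2.ne_empty this

lemma abs_seg_le (v : Y) {S : Finset Node} (hS : IsSeg S) : |∑ t ∈ S, v t| ≤ ‖v‖ := by
  refine abs_le_of_sq_le_sq' ?_ (norm_nonneg _) |> abs_le.mpr
  rw [norm_sq]; exact seg_sq_le_jsq v hS

lemma sum_sq_le (v : Y) (B : Finset Node) : ∑ t ∈ B, v t ^ 2 ≤ ‖v‖ ^ 2 := by
  simpa using key v B (fun t => {t}) (fun t _ => isSeg_singleton t)
    (fun i _ j _ h => by simpa using h)

/-- Restriction of a vector to a set of nodes. -/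
noncomputable def rst (p : Node → Prop) (v : Y) : Y := v.filter p

lemma rst_pos {p : Node → Prop} (v : Y) {t : Node} (h : p t) : rst p v t = v t :=
  Finsupp.filter_apply_pos _ _ h

lemma rst_neg {p : Node → Prop} (v : Y) {t : Node} (h : ¬ p t) : rst p v t = 0 :=
  Finsupp.filter_apply_neg _ _ h

lemma rst_add_rst (p : Node → Prop) (v : Y) : rst p v + rst (fun t => ¬ p t) v = v := by
  ext t
  by_cases h : p t
  · rw [Finsupp.add_apply, rst_pos v h, rst_neg v (not_not.mpr h), add_zero]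
  · rw [Finsupp.add_apply, rst_neg v h, rst_pos (p := fun t => ¬ p t) v h, zero_add]

lemma sum_rst (p : Node → Prop) (v : Y) (S : Finset Node) :
    ∑ t ∈ S, rst p v t = ∑ t ∈ S.filter p, v t := by
  rw [Finset.sum_filter]
  rfl

/-- The lower two estimate for disjoint order convex pieces. -/
lemma lower_est {ι : Type*} (v : Y) (s : Finset ι) (p : ι → Node → Prop) (hp : ∀ i ∈ s, Conv (p i))
    (hd : ∀ i ∈ s, ∀ j ∈ s, i ≠ j → ∀ t, p i t → ¬ p j t) :
    ∑ i ∈ s, ‖rst (p i) v‖ ^ 2 ≤ ‖v‖ ^ 2 := by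
  refine le_of_forall_pos_le_add fun e he => ?_
  have hpos : 0 < e / (s.card + 1) := by positivity
  have h1 : ∀ i, ∃ G : {G // Adm G}, ‖rst (p i) v‖ ^ 2 - e / (s.card + 1) < Q (rst (p i) v) G := by
    intro i
    refine exists_lt_of_lt_ciSup ?_
    rw [norm_sq]
    exact sub_lt_self _ hpos
  choose G hG using h1
  have h2 := key v (s.sigma fun i => (G i).1) (fun x => x.2.filter (p x.1)) (by
    rintro ⟨i, S⟩ hx
    rw [Finset.mem_sigma] at hx
    exact ((G i).2.1 S hx.2).filter (hp i hx.1)) (by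
    rintro ⟨i, S⟩ hx ⟨j, S'⟩ hy h
    rw [Finset.mem_sigma] at hx hy
    by_cases hij : i = j
    · subst hij
      have : S ≠ S' := fun e => h (by rw [e])
      exact Finset.disjoint_filter_filter ((G i).2.2 S hx.2 S' hy.2 this)
    · rw [Finset.disjoint_left]
      intro t ht ht'
      exact hd i hx.1 j hy.1 hij t (Finset.mem_filter.mp ht).2 (Finset.mem_filter.mp ht').2)
  rw [Finset.sum_sigma] at h2
  have h3 : ∑ i ∈ s, (‖rst (p i) v‖ ^ 2 - e / (s.card + 1)) ≤
      ∑ i ∈ s, ∑ S ∈ (G i).1, (∑ t ∈ S.filter (p i), v t) ^ 2 := by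
    refine Finset.sum_le_sum fun i _ => (hG i).le.trans (le_of_eq ?_)
    simp only [Q, sum_rst]
  rw [Finset.sum_sub_distrib, Finset.sum_const, nsmul_eq_mul] at h3
  have h4 : (s.card : ℝ) * (e / (s.card + 1)) ≤ e := by
    rw [← mul_div_assoc, div_le_iff₀ (by positivity)]
    nlinarith
  linarith

lemma norm_rst_le {p : Node → Prop} (hp : Conv p) (v : Y) : ‖rst p v‖ ≤ ‖v‖ := by
  have := lower_est v {()} (fun _ => p) (fun _ _ => hp) (by simp)
  rw [Finset.sum_singleton] at this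
  exact le_of_sq_le_sq this (norm_nonneg _)

lemma lower_two {p q : Node → Prop} (hp : Conv p) (hq : Conv q) (h : ∀ t, p t → ¬ q t) (v : Y) :
    ‖rst p v‖ ^ 2 + ‖rst q v‖ ^ 2 ≤ ‖v‖ ^ 2 := by
  have := lower_est v Finset.univ (fun b : Bool => if b then p else q)
    (fun b _ => by cases b <;> simpa) (by
      intro i _ j _ hij t
      cases i <;> cases j
      · exact absurd rfl hij
      · exact fun h1 h2 => h t h2 h1
      · exact h t
      · exact absurd rfl hij)
  simpa using this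

/-- The upper two estimate for vectors living on different trees. -/
lemma upper_trees {z z' : Y} {n : ℕ} (hz : ∀ t, n ≤ t.tr → z t = 0) (hz' : ∀ t, t.tr < n → z' t = 0) :
    ‖z + z'‖ ^ 2 ≤ ‖z‖ ^ 2 + ‖z'‖ ^ 2 := by
  refine norm_sq_le fun G hG => ?_
  rw [norm_sq, norm_sq]
  refine le_trans (le_of_eq ?_) (add_le_add (Q_le_jsq z hG) (Q_le_jsq z' hG))
  rw [Q, Q, Q, ← Finset.sum_add_distrib]
  refine Finset.sum_congr rfl fun S hS => ?_
  simp only [Finsupp.add_apply, Finset.sum_add_distrib]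
  by_cases h : ∃ a ∈ S, a.tr < n
  · obtain ⟨a, ha, h⟩ := h
    rw [Finset.sum_eq_zero (f := fun t => z' t) fun t ht =>
      hz' t (by rw [← (hG.1 S hS).tr_eq ha ht]; exact h)]
    ring
  · push Not at h
    rw [Finset.sum_eq_zero (f := fun t => z t) fun t ht => hz t (h t ht)]
    ring

/-- On the trees of height below `n` the norm is dominated by the Euclidean norm. -/
lemma norm_sq_le_euclid {z : Y} {n : ℕ} (hz : ∀ t, n ≤ t.tr → z t = 0) :
    ‖z‖ ^ 2 ≤ n * ∑ t ∈ z.support, z t ^ 2 := by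
  refine norm_sq_le fun G hG => ?_
  calc Q z G ≤ ∑ S ∈ G, n * ∑ t ∈ S, z t ^ 2 := by
        refine Finset.sum_le_sum fun S hS => ?_
        by_cases h : ∀ a ∈ S, a.tr < n
        · refine sq_sum_le_card_mul_sum_sq.trans ?_
          gcongr
          exact_mod_cast (hG.1 S hS).card_le h
        · push Not at h
          obtain ⟨a, ha, h⟩ := h
          rw [Finset.sum_eq_zero (f := fun t => z t) fun t ht =>
            hz t (by rw [← (hG.1 S hS).tr_eq ha ht]; exact h)]
          have : 0 ≤ ∑ t ∈ S, z t ^ 2 := Finset.sum_nonneg fun _ _ => sq_nonneg _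
          simp only [ne_eq, OfNat.ofNat_ne_zero, not_false_eq_true, zero_pow]
          positivity
    _ = n * ∑ t ∈ G.biUnion id, z t ^ 2 := by
        rw [← Finset.mul_sum, Finset.sum_biUnion]
        · rfl
        · intro S hS S' hS' h
          exact hG.2 S hS S' hS' h
    _ ≤ _ := mul_le_mul_of_nonneg_left
        (sum_le_support z (g := fun x => x ^ 2) (by simp) sq_nonneg _) (Nat.cast_nonneg n)

lemma norm_single_le (t : Node) : ‖(Finsupp.single t 1 : Y)‖ ≤ 1 := by
  have h : ‖(Finsupp.single t 1 : Y)‖ ^ 2 ≤ 1 := by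
    refine norm_sq_le fun G hG => (Q_le _ hG).trans ?_
    rw [Finsupp.support_single _ one_ne_zero]
    simp
  nlinarith [norm_nonneg (Finsupp.single t 1 : Y)]

end Vale.Agent.P069
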