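import Mathlib

/-!
The forest of countably branching trees of finite heights, its segments and potentials.
-/

namespace Vale.Agent.P069

open Classical

/-- A node of the forest: the tree number `tr` has height `tr`. -/
@[ext]
structure Node where
  tr : ℕ
  path : List ℕ
  len : path.length ≤ tr

instance : PartialOrder Node where
  le a b := a.tr = b.tr ∧ a.path <:+ b.path
  le_refl a := ⟨rfl, List.suffix_refl _⟩
  le_trans _ _ _ h h' := ⟨h.1.trans h'.1, h.2.trans h'.2⟩
  le_antisymm _ _ h h' := Node.ext h.1 (h.2.eq_of_length_le h'.2.length_le)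

lemma Node.le_def {a b : Node} : a ≤ b ↔ a.tr = b.tr ∧ a.path <:+ b.path := Iff.rfl

lemma Node.total_of_le {a b c : Node} (ha : a ≤ c) (hb : b ≤ c) : a ≤ b ∨ b ≤ a := by
  rcases List.suffix_or_suffix_of_suffix ha.2 hb.2 with h | h
  · exact Or.inl ⟨ha.1.trans hb.1.symm, h⟩
  · exact Or.inr ⟨hb.1.trans ha.1.symm, h⟩

lemma Node.eq_of_length {a b : Node} (h : a ≤ b ∨ b ≤ a) (hl : a.path.length = b.path.length) :
    a = b := by
  rcases h with h | h
  · exact Node.ext h.1 (h.2.eq_of_length hl)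
  · exact (Node.ext h.1 (h.2.eq_of_length hl.symm)).symm

lemma Node.finite_Iic (c : Node) : {a : Node | a ≤ c}.Finite := by
  refine Set.Finite.of_injOn (f := fun a : Node => a.path.length) (t := Set.Iic c.tr) ?_ ?_
    (Set.finite_Iic _)
  · intro a ha
    have h1 : a.tr = c.tr := ha.1
    have := a.len
    simp only [Set.mem_Iic]
    omega
  · intro a ha b hb h
    exact Node.eq_of_length (Node.total_of_le ha hb) h

/-- An order convex predicate. -/
def Conv (p : Node → Prop) : Prop := ∀ a b c : Node, p a → p b → a ≤ c → c ≤ b → p c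

/-- A downward closed finite set. -/
def Low (F : Finset Node) : Prop := ∀ a b : Node, a ≤ b → b ∈ F → a ∈ F

/-- A segment: a finite order convex chain. -/
def IsSeg (S : Finset Node) : Prop :=
  (∀ a ∈ S, ∀ b ∈ S, a ≤ b ∨ b ≤ a) ∧ Conv (· ∈ S)

lemma Low.conv {F : Finset Node} (h : Low F) : Conv (· ∈ F) := fun _ _ _ _ hb _ hc => h _ _ hc hb

lemma Low.conv_not {F : Finset Node} (h : Low F) : Conv (· ∉ F) :=
  fun _ _ _ ha _ hc _ hF => ha (h _ _ hc hF)

lemma Conv.and {p q : Node → Prop} (hp : Conv p) (hq : Conv q) : Conv fun a => p a ∧ q a :=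
  fun a b c ha hb h1 h2 => ⟨hp a b c ha.1 hb.1 h1 h2, hq a b c ha.2 hb.2 h1 h2⟩

lemma conv_tr (p : ℕ → Prop) : Conv fun a => p a.tr := fun _ _ _ ha _ h1 _ => by
  have := h1.1
  simp only [← this]
  exact ha

lemma exists_low (B : Finset Node) : ∃ F : Finset Node, Low F ∧ B ⊆ F := by
  refine ⟨B.biUnion fun c => (Node.finite_Iic c).toFinset, ?_, ?_⟩
  · intro a b hab hb
    simp only [Finset.mem_biUnion, Set.Finite.mem_toFinset, Set.mem_ofPred_eq] at hb ⊢
    obtain ⟨c, hc, h⟩ := hb
    exact ⟨c, hc, hab.trans h⟩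
  · intro a ha
    simp only [Finset.mem_biUnion, Set.Finite.mem_toFinset, Set.mem_ofPred_eq]
    exact ⟨a, ha, le_rfl⟩

lemma IsSeg.filter {S : Finset Node} (hS : IsSeg S) {p : Node → Prop} [DecidablePred p]
    (hp : Conv p) : IsSeg (S.filter p) := by
  refine ⟨fun a ha b hb => hS.1 a (Finset.mem_filter.mp ha).1 b (Finset.mem_filter.mp hb).1, ?_⟩
  intro a b c ha hb h1 h2
  rw [Finset.mem_filter] at ha hb ⊢
  exact ⟨hS.2 a b c ha.1 hb.1 h1 h2, hp a b c ha.2 hb.2 h1 h2⟩

lemma isSeg_singleton (t : Node) : IsSeg {t} := by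
  refine ⟨fun a ha b hb => ?_, fun a b c ha hb h1 h2 => ?_⟩
  · rw [Finset.mem_singleton] at ha hb
    rw [ha, hb]; exact Or.inl le_rfl
  · simp only [Finset.mem_singleton] at ha hb ⊢
    rw [ha] at h1; rw [hb] at h2
    exact le_antisymm h2 h1

lemma isSeg_empty : IsSeg ∅ := ⟨by simp, fun _ _ _ ha => by simp at ha⟩

lemma IsSeg.tr_eq {S : Finset Node} (hS : IsSeg S) {a b : Node} (ha : a ∈ S) (hb : b ∈ S) :
    a.tr = b.tr := by
  rcases hS.1 a ha b hb with h | h
  · exact h.1
  · exact h.1.symm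

lemma IsSeg.card_le {S : Finset Node} (hS : IsSeg S) {n : ℕ} (hn : ∀ a ∈ S, a.tr < n) :
    S.card ≤ n := by
  have := Finset.card_le_card_of_injOn (s := S) (t := Finset.range n)
    (fun a : Node => a.path.length) (fun a ha => by
      have h1 := hn a ha
      have := a.len
      simp only [Finset.coe_range, Set.mem_Iio]
      omega) (fun a ha b hb h => Node.eq_of_length (hS.1 a ha b hb) h)
  simpa using this

lemma exists_max_of_chain {S : Finset Node} (hS : ∀ a ∈ S, ∀ b ∈ S, a ≤ b ∨ b ≤ a)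
    (hne : S.Nonempty) : ∃ s ∈ S, ∀ a ∈ S, a ≤ s := by
  obtain ⟨s, hs⟩ := S.exists_maximal hne
  refine ⟨s, hs.1, fun a ha => ?_⟩
  rcases hS a ha s hs.1 with h | h
  · exact h
  · exact hs.2 ha h

lemma exists_min_of_chain {S : Finset Node} (hS : ∀ a ∈ S, ∀ b ∈ S, a ≤ b ∨ b ≤ a)
    (hne : S.Nonempty) : ∃ s ∈ S, ∀ a ∈ S, s ≤ a := by
  obtain ⟨s, hs⟩ := S.exists_minimal hne
  refine ⟨s, hs.1, fun a ha => ?_⟩
  rcases hS a ha s hs.1 with h | h
  · exact hs.2 ha h
  · exact h

/-- Telescoping along a segment. -/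
lemma telescope (g g' : Node → ℝ)
    (hg : ∀ s s' : Node, (∀ u, u < s ↔ u ≤ s') → g' s = g s') :
    ∀ (n : ℕ) (S : Finset Node), S.card = n → IsSeg S → ∀ a ∈ S, (∀ t ∈ S, a ≤ t) →
      ∀ s ∈ S, (∀ t ∈ S, t ≤ s) → ∑ t ∈ S, (g t - g' t) = g s - g' a := by
  intro n
  induction n with
  | zero =>
    intro S hS _ a ha
    rw [Finset.card_eq_zero.mp hS] at ha
    simp at ha
  | succ n ih =>
    intro S hcard hS a ha hamin s hs hsmax
    rw [← Finset.add_sum_erase S _ hs]
    by_cases hne : (S.erase s).Nonempty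
    · have hseg : IsSeg (S.erase s) := by
        refine ⟨fun x hx y hy => hS.1 x (Finset.mem_of_mem_erase hx) y
          (Finset.mem_of_mem_erase hy), ?_⟩
        intro x y c hx hy h1 h2
        simp only [Finset.mem_erase] at hx hy ⊢
        refine ⟨?_, hS.2 x y c hx.2 hy.2 h1 h2⟩
        rintro rfl
        exact hy.1 (le_antisymm (hsmax y hy.2) h2)
      obtain ⟨s', hs', hs'max⟩ := exists_max_of_chain hseg.1 hne
      have hs'S := Finset.mem_erase.mp hs'
      have has : a ∈ S.erase s := by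
        refine Finset.mem_erase.mpr ⟨?_, ha⟩
        rintro rfl
        exact hs'S.1 (le_antisymm (hsmax _ hs'S.2) (hamin _ hs'S.2))
      rw [ih (S.erase s) (by rw [Finset.card_erase_of_mem hs, hcard]; rfl) hseg a has
        (fun t ht => hamin t (Finset.mem_of_mem_erase ht)) s' hs' hs'max, hg s s']
      · ring
      · intro u
        have hlt : s' < s := lt_of_le_of_ne (hsmax _ hs'S.2) hs'S.1
        refine ⟨fun hu => ?_, fun hu => hu.trans_lt hlt⟩
        rcases Node.total_of_le hu.le hlt.le with h | h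
        · exact h
        · exact hs'max u (Finset.mem_erase.mpr ⟨hu.ne, hS.2 s' s u hs'S.2 hs h hu.le⟩)
    · rw [Finset.not_nonempty_iff_eq_empty] at hne
      have : a = s := by
        by_contra h
        have : a ∈ S.erase s := Finset.mem_erase.mpr ⟨h, ha⟩
        rw [hne] at this
        simp at this
      rw [hne, this]; simp

/-- The potential: sum of the coefficients above or at a node. -/
noncomputable def pot (w : Node →₀ ℝ) (t : Node) : ℝ := ∑ u ∈ w.support.filter (· ≤ t), w u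

/-- The strict potential. -/
noncomputable def pot' (w : Node →₀ ℝ) (t : Node) : ℝ := ∑ u ∈ w.support.filter (· < t), w u

lemma pot_sub (w : Node →₀ ℝ) (t : Node) : pot w t - pot' w t = w t := by
  rw [pot, pot', Finset.sum_filter, Finset.sum_filter, ← Finset.sum_sub_distrib]
  have : ∀ u ∈ w.support, ((if u ≤ t then w u else 0) - if u < t then w u else 0) =
      if u = t then w u else 0 := by
    intro u _
    by_cases h : u = t
    · simp [h]
    · by_cases h2 : u ≤ t
      · simp [h, h2, lt_of_le_of_ne h2 h]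
      · have : ¬ u < t := fun h3 => h2 h3.le
        simp [h, h2, this]
  rw [Finset.sum_congr rfl this, Finset.sum_ite_eq']
  split_ifs with h
  · rfl
  · exact (Finsupp.notMem_support_iff.mp h).symm

lemma pot_telescope (w : Node →₀ ℝ) (φ : ℝ → ℝ) {S : Finset Node} (hS : IsSeg S) {a s : Node}
    (ha : a ∈ S) (hamin : ∀ t ∈ S, a ≤ t) (hs : s ∈ S) (hsmax : ∀ t ∈ S, t ≤ s) :
    ∑ t ∈ S, (φ (pot w t) - φ (pot' w t)) = φ (pot w s) - φ (pot' w a) := by
  refine telescope (fun t => φ (pot w t)) (fun t => φ (pot' w t)) ?_ _ S rfl hS a ha hamin s hs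
    hsmax
  intro s s' h
  simp only [pot, pot', h]

end Vale.Agent.P069
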